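import Crest.Agent.R172.Q.Pf.Main
import Crest.Agent.R172.Q.Defs

/-! R172/Q/Pf/Bridge: `Q.S_PF` in the model of `R172/Q/Defs` (owner helper92) -/

set_option autoImplicit false
set_option linter.unusedVariables false
set_option linter.unusedSectionVars false
open Matrix Sum Crest.AlgebraR.SpinSaturation Crest.Agent.R172.W

noncomputable section
namespace Crest.Agent.R172.Pf

theorem exists_ginv {ι : Type} [Fintype ι] [DecidableEq ι] (e : Matrix ι ι ℂ) : ∃ f : Matrix ι ι ℂ, e * f * e = e := by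
  obtain ⟨g, hg⟩ := (Matrix.toLin' e).rangeRestrict.exists_rightInverse_of_surjective (LinearMap.range_rangeRestrict _)
  obtain ⟨f, hf⟩ := LinearMap.exists_extend g
  refine ⟨LinearMap.toMatrix' f, Matrix.toLin'.injective ?_⟩
  rw [Matrix.toLin'_mul, Matrix.toLin'_mul, Matrix.toLin'_toMatrix']
  refine LinearMap.ext fun x => ?_
  have h1 := LinearMap.congr_fun hf ⟨Matrix.toLin' e x, LinearMap.mem_range_self _ x⟩
  have h2 := congrArg Subtype.val (LinearMap.congr_fun hg ⟨Matrix.toLin' e x, LinearMap.mem_range_self _ x⟩)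
  simp only [LinearMap.comp_apply, Submodule.subtype_apply] at h1 ⊢
  rw [h1]
  exact h2

theorem sum4_comm {M ι : Type*} [AddCommMonoid M] [Fintype ι] (f : ι → ι → ι → ι → M) :
    ∑ p, ∑ q, ∑ r, ∑ s, f p q r s = ∑ r, ∑ s, ∑ p, ∑ q, f p q r s :=
  calc ∑ p, ∑ q, ∑ r, ∑ s, f p q r s = ∑ p, ∑ r, ∑ q, ∑ s, f p q r s := Finset.sum_congr rfl fun p _ => Finset.sum_comm
    _ = ∑ r, ∑ p, ∑ q, ∑ s, f p q r s := Finset.sum_comm
    _ = ∑ r, ∑ p, ∑ s, ∑ q, f p q r s := Finset.sum_congr rfl fun r _ => Finset.sum_congr rfl fun p _ => Finset.sum_comm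
    _ = ∑ r, ∑ s, ∑ p, ∑ q, f p q r s := Finset.sum_congr rfl fun r _ => Finset.sum_comm

namespace CD
variable {n : ℕ} {K : Type} [Fintype K] [DecidableEq K] {S : Type} [AddCommGroup S] [Module ℂ S] (C : CD n K S)

theorem br_c_add (y z : L n → K → ℂ) : C.c (y + z) = C.c y + C.c z := by
  simp only [c, Pi.add_apply, add_smul, Finset.sum_add_distrib]

theorem br_c_smul (t : ℂ) (y : L n → K → ℂ) : C.c (t • y) = t • C.c y := by
  simp only [c, Pi.smul_apply, smul_eq_mul, Finset.smul_sum, mul_smul]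

theorem br_c_zero : C.c 0 = 0 := by
  simp only [c, Pi.zero_apply, zero_smul, Finset.sum_const_zero]

theorem br_c_sum {ι : Type*} (s : Finset ι) (y : ι → L n → K → ℂ) : C.c (∑ j ∈ s, y j) = ∑ j ∈ s, C.c (y j) :=
  map_sum (AddMonoidHom.mk' C.c C.br_c_add) y s

/-- the spin lift of a skew matrix -/
def hat (i : Fin 3) (e : Matrix (L n) (L n) ℂ) : Module.End ℂ S := ∑ p, ∑ q, (e p q / 2) • C.F i p q

theorem hat_c (i : Fin 3) {e : Matrix (L n) (L n) ℂ} (he : e ∈ LieAlgebra.Orthogonal.typeD (Fin n) ℂ) (y : L n → K → ℂ) :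
    C.hat i e * C.c y - C.c y * C.hat i e = C.c (fun r k => if C.col k = i then (e *ᵥ fun s => y s k) r else 0) := by
  have h0 : e = ∑ p, ∑ q, (e p q / 2) • Xm p q := by
    have := congrArg Subtype.val (X_span ⟨e, he⟩)
    simpa [X] using this
  have h1 : (fun r k => if C.col k = i then (e *ᵥ fun s => y s k) r else 0) =
      ∑ p, ∑ q, (e p q / 2) • (fun r k => if C.col k = i then (Xm p q *ᵥ fun s => y s k) r else 0) := by
    funext r k
    simp only [Finset.sum_apply, Pi.smul_apply]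
    split_ifs
    · conv_lhs => rw [h0]
      simp only [Matrix.sum_mulVec, Matrix.smul_mulVec, Finset.sum_apply, Pi.smul_apply]
    · simp
  rw [h1, br_c_sum, hat, Finset.sum_mul, Finset.mul_sum, ← Finset.sum_sub_distrib]
  refine Finset.sum_congr rfl fun p _ => ?_
  rw [br_c_sum, Finset.sum_mul, Finset.mul_sum, ← Finset.sum_sub_distrib]
  refine Finset.sum_congr rfl fun q _ => ?_
  rw [br_c_smul, smul_mul_assoc, mul_smul_comm, ← smul_sub, C.F_c]

theorem hat_nil (i : Fin 3) {e : Matrix (L n) (L n) ℂ} (he : e ∈ LieAlgebra.Orthogonal.typeD (Fin n) ℂ) (h2 : e * e = 0) :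
    IsNilpotent (C.hat i e) := by
  have hs := mem_typeD.1 he
  obtain ⟨f, hf⟩ := exists_ginv e
  let α : L n → K → Module.End ℂ S := fun r k => ∑ p, e p r • C.γ p k
  have sw : ∀ {M : Type} [AddCommMonoid M] (g : L n → M), ∑ p, g p = ∑ p : L n, g p.swap := fun g =>
    (Equiv.sum_comp (Equiv.sumComm (Fin n) (Fin n)) g).symm
  have aa : ∀ r k s l, α r k * α s l = -(α s l * α r k) := fun r k s l => by
    refine eq_neg_of_add_eq_zero_left ?_
    have e1 : α r k * α s l + α s l * α r k = ∑ p, ∑ q, (e p r * e q s) • (C.γ p k * C.γ q l + C.γ q l * C.γ p k) := by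
      simp only [α, Finset.sum_mul, Finset.mul_sum, smul_mul_smul_comm, smul_add, Finset.sum_add_distrib]
      congr 1
      · exact Finset.sum_comm
      · exact Finset.sum_congr rfl fun p _ => Finset.sum_congr rfl fun q _ => by rw [mul_comm]
    rw [e1]
    by_cases hl : l = C.τ k
    · simp only [C.car, hl, and_true, smul_ite, smul_zero, Finset.sum_ite_eq', Finset.mem_univ, if_true, ← Finset.sum_smul]
      have e2 : ∑ p, e p r * e p.swap s = -(e * e) r.swap s := by
        rw [mul_apply, sw fun j => e r.swap j * e j s, ← Finset.sum_neg_distrib]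
        exact Finset.sum_congr rfl fun p _ => by rw [hs p r, neg_mul]
      rw [e2, h2, Matrix.zero_apply, neg_zero, zero_smul]
    · simp only [C.car, hl, and_false, if_false, smul_zero, Finset.sum_const_zero]
  have htr : ∑ p, e p p = 0 := by
    have e1 : ∑ p, e p p = -∑ p, e p p := by
      conv_lhs => rw [sw]
      rw [← Finset.sum_neg_distrib]
      exact Finset.sum_congr rfl fun p _ => by rw [hs p p, neg_neg]
    linear_combination e1 / 2
  have hβ : ∀ s l, ∑ q, e s q • C.γ q.swap l = -α s.swap l := fun s l => by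
    rw [sw, ← Finset.sum_neg_distrib]
    exact Finset.sum_congr rfl fun q _ => by rw [hs s q.swap, Sum.swap_swap, neg_smul]
  have key : C.hat i e = ∑ x ∈ (Finset.univ.filter (fun k => C.col k = i)) ×ˢ (Finset.univ : Finset (L n × L n)),
      (-(f x.2.1 x.2.2 / 2)) • (α x.2.1 x.1 * α x.2.2.swap (C.τ x.1)) := by
    rw [Finset.sum_product, hat]
    simp only [F, Finset.smul_sum]
    rw [Finset.sum_congr rfl fun p _ => Finset.sum_comm, Finset.sum_comm]
    refine Finset.sum_congr rfl fun k _ => ?_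
    simp only [smul_sub, Finset.sum_sub_distrib, smul_ite, smul_zero, Finset.sum_ite_eq, Finset.mem_univ, if_true, ← Finset.sum_smul]
    rw [← Finset.sum_div, htr, zero_div, zero_smul, sub_zero, Fintype.sum_prod_type]
    have e3 : ∀ r s, (-(f r s / 2)) • (α r k * α s.swap (C.τ k)) = ∑ p, ∑ q, (e p r * f r s * e s q / 2) • (C.γ p k * C.γ q.swap (C.τ k)) := by
      intro r s
      rw [neg_smul, ← smul_neg, ← mul_neg, ← hβ]
      simp only [α, Finset.sum_mul, Finset.mul_sum, smul_mul_smul_comm, Finset.smul_sum, smul_smul]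
      rw [Finset.sum_comm]
      exact Finset.sum_congr rfl fun p _ => Finset.sum_congr rfl fun q _ => by congr 1; ring
    simp only [e3]
    have e4 : ∀ p q, (e p q / 2) • (C.γ p k * C.γ q.swap (C.τ k)) =
        ∑ r, ∑ s, (e p r * f r s * e s q / 2) • (C.γ p k * C.γ q.swap (C.τ k)) := by
      intro p q
      simp only [← Finset.sum_smul, ← Finset.sum_div]
      congr 2
      conv_lhs => rw [← hf]
      simp only [mul_apply, Finset.sum_mul]
      exact Finset.sum_comm
    simp only [e4]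
    exact sum4_comm _
  have prod : ∀ r k r' k' s l s' l', α r k * α r' k' * (α s l * α s' l') = -(α r k * α s l * (α r' k' * α s' l')) :=
    fun r k r' k' s l s' l' => by rw [mul_assoc, ← mul_assoc (α r' k'), aa r' k', neg_mul, mul_neg, mul_assoc, mul_assoc]
  rw [key]
  refine Commute.isNilpotent_sum (fun x _ => IsNilpotent.smul ⟨2, ?_⟩ _) fun x y _ _ => Commute.smul_left (Commute.smul_right ?_ _) _
  · have h0 : α x.2.1 x.1 * α x.2.1 x.1 = 0 := by
      have h3 : (2 : ℂ) • (α x.2.1 x.1 * α x.2.1 x.1) = 0 := by rw [two_smul]; exact add_eq_zero_iff_eq_neg.2 (aa _ _ _ _)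
      exact (smul_eq_zero.1 h3).resolve_left two_ne_zero
    rw [pow_two, prod, h0, zero_mul, neg_zero]
  · change _ * _ = _ * _
    rw [prod x.2.1 x.1, prod y.2.1 y.1, aa x.2.1 x.1 y.2.1 y.1, aa x.2.2.swap (C.τ x.1) y.2.2.swap (C.τ y.1), neg_mul_neg]

theorem lift_sq (i : Fin 3) {e : Matrix (L n) (L n) ℂ} (he : e ∈ LieAlgebra.Orthogonal.typeD (Fin n) ℂ) (h2 : e * e = 0) :
    C.Lift i (1 + e) := by
  let _ : Algebra ℚ (Module.End ℂ S) := Algebra.compHom _ (algebraMap ℚ ℂ)
  have hsm : ∀ (r : ℚ) (x : Module.End ℂ S), r • x = (r : ℂ) • x := fun r x => rfl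
  have hnil := C.hat_nil i he h2
  refine ⟨IsNilpotent.exp (C.hat i e), ((Module.End.isUnit_iff _).1 (IsNilpotent.isUnit_exp hnil)).1, ?_, ?_⟩
  · intro N hN x hx
    have hpow : ∀ m : ℕ, ((C.hat i e) ^ m) x ∈ N := by
      intro m
      induction m with
      | zero => simpa using hx
      | succ m ih =>
        rw [pow_succ', Module.End.mul_apply, hat, LinearMap.sum_apply]
        refine N.sum_mem fun p _ => ?_
        rw [LinearMap.sum_apply]
        exact N.sum_mem fun q _ => N.smul_mem _ (hN i p q _ ih)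
    rw [IsNilpotent.exp, LinearMap.sum_apply]
    refine N.sum_mem fun m _ => ?_
    rw [hsm, LinearMap.smul_apply]
    exact N.smul_mem _ (hpow m)
  · intro y
    let D : (L n → K → ℂ) → L n → K → ℂ := fun y r k => if C.col k = i then (e *ᵥ fun s => y s k) r else 0
    have hD : ∀ y, C.hat i e * C.c y - C.c y * C.hat i e = C.c (D y) := fun y => C.hat_c i he y
    have hDD : D (D y) = 0 := by
      funext r k
      by_cases hk : C.col k = i
      · simp only [D, hk, if_true, Matrix.mulVec_mulVec, h2, Matrix.zero_mulVec, Pi.zero_apply]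
      · simp only [D, hk, if_false, Pi.zero_apply]
    have h3 := hD (D y)
    rw [hDD, br_c_zero, sub_eq_zero] at h3
    rw [exp_mul_eq hnil (hD y) h3, ← br_c_add]
    congr 2
    funext r k
    by_cases hk : C.col k = i
    · simp only [actc, D, hk, if_true, Pi.add_apply, Matrix.add_mulVec, Matrix.one_mulVec]
    · simp only [actc, D, hk, if_false, Pi.add_apply, add_zero]

theorem lift_Gp (i : Fin 3) {g : Matrix (L n) (L n) ℂ} (hg : g ∈ Q.Gp n) : C.Lift i g := by
  induction hg using Submonoid.closure_induction with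
  | mem x hx =>
    obtain ⟨e, he, h2, rfl⟩ := hx
    exact C.lift_sq i he h2
  | one =>
    refine ⟨1, fun a b h => h, fun N _ x hx => hx, fun y => ?_⟩
    rw [one_mul, mul_one]
    congr 1
    funext p k
    by_cases hk : C.col k = i
    · simp only [actc, hk, if_true, Matrix.one_mulVec]
    · simp only [actc, hk, if_false]
  | mul x z _ _ hx hz =>
    obtain ⟨G, hG, hGN, hGc⟩ := hx
    obtain ⟨H, hH, hHN, hHc⟩ := hz
    refine ⟨G * H, hG.comp hH, fun N hN a ha => hGN N hN _ (hHN N hN a ha), fun y => ?_⟩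
    rw [mul_assoc, hHc, ← mul_assoc, hGc, mul_assoc]
    congr 2
    funext p k
    by_cases hk : C.col k = i
    · simp only [actc, hk, if_true, Matrix.mulVec_mulVec]
    · simp only [actc, hk, if_false]
end CD

theorem orth_Gp {n : ℕ} {g : Matrix (L n) (L n) ℂ} (hg : g ∈ Q.Gp n) :
    (∀ u w : L n → ℂ, ∑ p, (g *ᵥ u) p * (g *ᵥ w) p.swap = ∑ p, u p * w p.swap) ∧ Function.Surjective g.mulVec := by
  induction hg using Submonoid.closure_induction with
  | mem x hx =>
    obtain ⟨e, he, h2, rfl⟩ := hx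
    have hs := mem_typeD.1 he
    have sk : ∀ u w : L n → ℂ, ∑ p, (e *ᵥ u) p * w p.swap = -∑ p, u p * (e *ᵥ w) p.swap := fun u w => by
      simp only [mulVec, dotProduct, Finset.sum_mul, Finset.mul_sum, ← Finset.sum_neg_distrib]
      rw [Finset.sum_comm]
      refine Finset.sum_congr rfl fun q _ => ?_
      rw [← Equiv.sum_comp (Equiv.sumComm (Fin n) (Fin n)) fun r => -(u q * (e q.swap r * w r))]
      exact Finset.sum_congr rfl fun p _ => by rw [hs p q, Equiv.sumComm_apply]; ring
    refine ⟨fun u w => ?_, fun w => ⟨(1 - e) *ᵥ w, ?_⟩⟩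
    · simp only [add_mulVec, one_mulVec, Pi.add_apply, add_mul, mul_add, Finset.sum_add_distrib]
      rw [sk u w, sk u (e *ᵥ w), mulVec_mulVec, h2]
      simp only [zero_mulVec, Pi.zero_apply, mul_zero, Finset.sum_const_zero]
      ring
    · rw [mulVec_mulVec, add_mul, mul_sub, mul_sub, h2]
      simp
  | one => exact ⟨fun u w => by simp only [one_mulVec], fun w => ⟨w, one_mulVec w⟩⟩
  | mul x z _ _ hx hz =>
    refine ⟨fun u w => by rw [← mulVec_mulVec, ← mulVec_mulVec, hx.1, hz.1], fun w => ?_⟩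
    obtain ⟨u, rfl⟩ := hx.2 w
    obtain ⟨u', rfl⟩ := hz.2 u
    exact ⟨u', (mulVec_mulVec _ _ _).symm⟩

theorem count_aux (d : ℕ) (l : ℕ) (h : d ≤ l) : (∑ k ∈ Finset.range l, if k < d then (1 : ℤ) else -1) = 2 * d - l := by
  induction l, h using Nat.le_induction with
  | base =>
    rw [Finset.sum_congr rfl fun k hk => if_pos (Finset.mem_range.1 hk)]
    simp
    ring
  | succ l h ih =>
    rw [Finset.sum_range_succ, ih, if_neg (by omega)]
    push_cast
    ring

theorem count_sign (l : ℕ) (x : ℤ) (h1 : Even ((l : ℤ) - x)) (h2 : |x| ≤ l) :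
    x = ∑ k : Fin l, if 2 * ((k : ℕ) : ℤ) < l + x then 1 else -1 := by
  obtain ⟨r, hr⟩ := h1
  obtain ⟨h3, h4⟩ := abs_le.1 h2
  obtain ⟨d, hd⟩ : ∃ d : ℕ, (d : ℤ) = l - r := ⟨(l - r : ℤ).toNat, by omega⟩
  rw [Fin.sum_univ_eq_sum_range (fun k : ℕ => if 2 * (k : ℤ) < l + x then (1 : ℤ) else -1) l,
    Finset.sum_congr rfl (g := fun k => if k < d then (1 : ℤ) else -1) fun k _ => if_congr (by omega) rfl rfl,
    count_aux d l (by omega)]
  omega

/-- S_PF in the model of `R172/Q/Defs` -/
theorem s_pf : Q.S_PF := by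
  intro n a l hA g hg T hT hH U V W
  refine S_PF_gen (K := Q.K l) Q.rv (fun k => by simp [Q.rv]) (fun k => k.1) (fun k => rfl)
    (fun p k => 2 * ((k.2 : ℕ) : ℤ) < l k.1 + Q.sc (a k.1) p) (fun p k => ?_) (fun t ht k => ?_) a hA.dom (fun i j => ?_) g
    (fun S _ _ C i => C.lift_Gp i (hg i)) (fun i => orth_Gp (hg i)) T (fun u => ?_) (fun y h1 h2 => ?_) U V W
  · obtain ⟨i, k⟩ := k
    have hk := k.2
    have e : ((k.rev : ℕ) : ℤ) = l i - 1 - k := by rw [Fin.val_rev]; omega
    rcases p with j | j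
    · obtain ⟨r, hr⟩ := hA.par i j
      change 2 * ((k.rev : ℕ) : ℤ) < l i + -a i j ↔ ¬2 * ((k : ℕ) : ℤ) < l i + a i j
      omega
    · obtain ⟨r, hr⟩ := hA.par i j
      change 2 * ((k.rev : ℕ) : ℤ) < l i + a i j ↔ ¬2 * ((k : ℕ) : ℤ) < l i + -a i j
      omega
  · have h1 := abs_le.1 (hA.dom k.1 t.1 t.2.1 (mem_pr.1 ht))
    have h2 : Q.sc (a k.1) (l2 t) ≤ a k.1 t.1 := by
      unfold l2
      split_ifs
      · exact h1.2
      · exact neg_le.1 h1.1
    exact fun h => h.trans_le (add_le_add_right h2 _)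
  · rw [Finset.sum_filter, Fintype.sum_sigma, Finset.sum_eq_single i]
    · simp only [if_true]
      exact count_sign (l i) (a i j) (hA.par i j) (hA.le i j)
    · intro i' _ hi
      exact Finset.sum_eq_zero fun k _ => if_neg hi
    · simp
  · rw [hT u]
    refine forall₂_congr fun t _ => ?_
    have e : Q.bV u t = ∑ k, t k * u (Q.rv k) := by
      have hr : Function.Involutive (Q.rv (l := l)) := fun k => by simp [Q.rv]
      rw [Q.bV, ← Equiv.sum_comp hr.toPerm]
      exact Finset.sum_congr rfl fun k _ => by rw [Function.Involutive.coe_toPerm, hr k, mul_comm]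
    rw [e]
  · choose w hw1 hw2 using h2
    have : (Matrix.of y) ∈ Q.H g a T := by
      refine ⟨⟨Matrix.of fun p k => w k p, fun p k h => hw1 k p (not_lt.2 h), ?_⟩, fun k => Submodule.mem_top, h1⟩
      ext p k
      exact (congrFun (hw2 k) p).symm
    rw [hH, Submodule.mem_bot] at this
    exact this

end Crest.Agent.R172.Pf
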