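import Crest.Agent.R172.Q.Pf.Defs

/-! R172/Q/Pf/Car: the Fock space -/

set_option autoImplicit false
set_option linter.unusedVariables false
set_option linter.unusedSectionVars false
open Matrix Sum Crest.AlgebraR.SpinSaturation Crest.Agent.R172.W

noncomputable section
namespace Crest.Agent.R172.Pf

section CarAux
variable {S : Type} [AddCommGroup S] [Module ℂ S]

/-- `(x, y) ↦ (y, 0)` -/
def carA (S : Type) [AddCommGroup S] [Module ℂ S] : Module.End ℂ (S × S) := (LinearMap.inl ℂ S S).comp (LinearMap.snd ℂ S S)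
/-- `(x, y) ↦ (0, x)` -/
def carB (S : Type) [AddCommGroup S] [Module ℂ S] : Module.End ℂ (S × S) := (LinearMap.inr ℂ S S).comp (LinearMap.fst ℂ S S)
/-- `(x, y) ↦ (f x, - f y)` -/
def carP (f : Module.End ℂ S) : Module.End ℂ (S × S) := LinearMap.prodMap f (-f)

theorem carA_apply (x y : S) : carA S (x, y) = (y, 0) := rfl
theorem carB_apply (x y : S) : carB S (x, y) = (0, x) := rfl
theorem carP_apply (f : Module.End ℂ S) (x y : S) : carP f (x, y) = (f x, -f y) := rfl

theorem car_AA : carA S * carA S + carA S * carA S = 0 := by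
  refine LinearMap.ext fun ⟨x, y⟩ => ?_
  simp [carA_apply]

theorem car_BB : carB S * carB S + carB S * carB S = 0 := by
  refine LinearMap.ext fun ⟨x, y⟩ => ?_
  simp [carB_apply]

theorem car_AB : carA S * carB S + carB S * carA S = 1 := by
  refine LinearMap.ext fun ⟨x, y⟩ => ?_
  simp [carA_apply, carB_apply]

theorem car_AP (f : Module.End ℂ S) : carA S * carP f + carP f * carA S = 0 := by
  refine LinearMap.ext fun ⟨x, y⟩ => ?_
  simp [carA_apply, carP_apply]

theorem car_BP (f : Module.End ℂ S) : carB S * carP f + carP f * carB S = 0 := by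
  refine LinearMap.ext fun ⟨x, y⟩ => ?_
  simp [carB_apply, carP_apply]

theorem car_PP (f g : Module.End ℂ S) : carP f * carP g + carP g * carP f =
    LinearMap.prodMap (f * g + g * f) (f * g + g * f) := by
  refine LinearMap.ext fun ⟨x, y⟩ => ?_
  simp [carP_apply]

theorem car_P0 : (LinearMap.prodMap (0 : Module.End ℂ S) (0 : Module.End ℂ S) : Module.End ℂ (S × S)) = 0 := by
  refine LinearMap.ext fun ⟨x, y⟩ => ?_
  simp

theorem car_P1 : (LinearMap.prodMap (1 : Module.End ℂ S) (1 : Module.End ℂ S) : Module.End ℂ (S × S)) = 1 := by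
  refine LinearMap.ext fun ⟨x, y⟩ => ?_
  simp

end CarAux

/-- Induction on `m`: `S' = S × S`, `a 0 (x, y) = (y, 0)`, `b 0 (x, y) = (0, x)`, `a (i+1) = prodMap (a i) (-a i)`, same for `b`, `v' = (v, 0)`. -/
theorem car_fin (m : ℕ) : ∃ (S : Type) (_ : AddCommGroup S) (_ : Module ℂ S) (_ : FiniteDimensional ℂ S) (a b : Fin m → Module.End ℂ S) (v : S),
    v ≠ 0 ∧ (∀ i, a i v = 0) ∧ (∀ i j, a i * a j + a j * a i = 0) ∧ (∀ i j, b i * b j + b j * b i = 0) ∧
      ∀ i j, a i * b j + b j * a i = if i = j then 1 else 0 := by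
  induction m with
  | zero =>
    exact ⟨ℂ, inferInstance, inferInstance, inferInstance, fun i => i.elim0, fun i => i.elim0, 1, one_ne_zero,
      fun i => i.elim0, fun i => i.elim0, fun i => i.elim0, fun i => i.elim0⟩
  | succ m ih =>
    obtain ⟨S, _, _, _, a, b, v, hv, h0, haa, hbb, hab⟩ := ih
    refine ⟨S × S, inferInstance, inferInstance, inferInstance, Fin.cons (carA S) fun i => carP (a i),
      Fin.cons (carB S) fun i => carP (b i), (v, 0), fun h => hv (congrArg Prod.fst h), ?_, ?_, ?_, ?_⟩
    · intro i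
      refine Fin.cases ?_ (fun i => ?_) i
      · simp [carA_apply]
      · simp [carP_apply, h0]
    · intro i j
      refine Fin.cases ?_ (fun i => ?_) i <;> refine Fin.cases ?_ (fun j => ?_) j <;>
        simp only [Fin.cons_zero, Fin.cons_succ]
      · exact car_AA
      · exact car_AP _
      · rw [add_comm]; exact car_AP _
      · rw [car_PP, haa, car_P0]
    · intro i j
      refine Fin.cases ?_ (fun i => ?_) i <;> refine Fin.cases ?_ (fun j => ?_) j <;>
        simp only [Fin.cons_zero, Fin.cons_succ]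
      · exact car_BB
      · exact car_BP _
      · rw [add_comm]; exact car_BP _
      · rw [car_PP, hbb, car_P0]
    · intro i j
      refine Fin.cases ?_ (fun i => ?_) i <;> refine Fin.cases ?_ (fun j => ?_) j <;>
        simp only [Fin.cons_zero, Fin.cons_succ]
      · rw [if_pos trivial]; exact car_AB
      · rw [if_neg (Fin.succ_ne_zero j).symm]; exact car_AP _
      · rw [if_neg (Fin.succ_ne_zero i), add_comm]; exact car_BP _
      · rw [car_PP, hab]
        by_cases h : i = j
        · rw [if_pos h, if_pos (congrArg Fin.succ h), car_P1]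
        · rw [if_neg h, if_neg (fun h' => h (Fin.succ_injective _ h')), car_P0]

/-- `e : {i // J i} ≃ Fin m`; `γ i = if h : J i then a (e ⟨i, h⟩) else b (e ⟨σ i, _⟩)` -/
theorem car_exists {I : Type} [Fintype I] [DecidableEq I] (σ : I → I) (hσ : ∀ i, σ (σ i) = i) (J : I → Prop) (hJ : ∀ i, J (σ i) ↔ ¬J i) :
    ∃ (S : Type) (_ : AddCommGroup S) (_ : Module ℂ S) (_ : FiniteDimensional ℂ S) (γ : I → Module.End ℂ S) (v : S),
      v ≠ 0 ∧ (∀ i, J i → γ i v = 0) ∧ ∀ i j, γ i * γ j + γ j * γ i = if j = σ i then 1 else 0 := by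
  classical
  obtain ⟨S, _, _, _, a, b, v, hv, h0, haa, hbb, hab⟩ := car_fin (Fintype.card I)
  let e := Fintype.equivFin I
  refine ⟨S, inferInstance, inferInstance, inferInstance, fun i => if J i then a (e i) else b (e (σ i)), v, hv, ?_, ?_⟩
  · intro i hi
    simp only [if_pos hi]
    exact h0 _
  · intro i j
    by_cases hi : J i <;> by_cases hj : J j <;> simp only [hi, hj, if_true, if_false]
    · rw [haa, if_neg]
      rintro rfl
      exact (hJ i).1 hj hi
    · rw [hab]
      refine if_congr ⟨fun h => ?_, fun h => ?_⟩ rfl rfl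
      · rw [e.injective h, hσ]
      · rw [h, hσ]
    · rw [add_comm, hab]
      exact if_congr e.injective.eq_iff rfl rfl
    · rw [hbb, if_neg]
      rintro rfl
      exact hj ((hJ i).2 hi)

end Crest.Agent.R172.Pf
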