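import Crest.Agent.R172.Q.Pf.Defs

/-! R172/Q/Pf/Cl: the three actions -/

set_option autoImplicit false
set_option linter.unusedVariables false
set_option linter.unusedSectionVars false
open Matrix Sum Crest.AlgebraR.SpinSaturation Crest.Agent.R172.W

noncomputable section
namespace Crest.Agent.R172.Pf

namespace CD
variable {n : ℕ} {K : Type} [Fintype K] [DecidableEq K] {S : Type} [AddCommGroup S] [Module ℂ S] (C : CD n K S)

theorem c_c (y z : L n → K → ℂ) : C.c y * C.c z + C.c z * C.c y = C.B y z • 1 := by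
  have h1 : C.c y * C.c z = ∑ p, ∑ k, ∑ q, ∑ l, (y p k * z q l) • (C.γ p k * C.γ q l) := by
    unfold c
    rw [Finset.sum_mul]
    refine Finset.sum_congr rfl fun p _ => ?_
    rw [Finset.sum_mul]
    refine Finset.sum_congr rfl fun k _ => ?_
    rw [Finset.mul_sum]
    refine Finset.sum_congr rfl fun q _ => ?_
    rw [Finset.mul_sum]
    refine Finset.sum_congr rfl fun l _ => ?_
    rw [smul_mul_smul_comm]
  have h2 : C.c z * C.c y = ∑ p, ∑ k, ∑ q, ∑ l, (y p k * z q l) • (C.γ q l * C.γ p k) := by
    unfold c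
    rw [Finset.mul_sum]
    refine Finset.sum_congr rfl fun p _ => ?_
    rw [Finset.mul_sum]
    refine Finset.sum_congr rfl fun k _ => ?_
    rw [Finset.sum_mul]
    refine Finset.sum_congr rfl fun q _ => ?_
    rw [Finset.sum_mul]
    refine Finset.sum_congr rfl fun l _ => ?_
    rw [smul_mul_smul_comm, mul_comm (z q l)]
  rw [h1, h2, B, Finset.sum_smul, ← Finset.sum_add_distrib]
  refine Finset.sum_congr rfl fun p _ => ?_
  rw [Finset.sum_smul, ← Finset.sum_add_distrib]
  refine Finset.sum_congr rfl fun k _ => ?_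
  simp only [← Finset.sum_add_distrib, ← smul_add, C.car]
  rw [Finset.sum_eq_single p.swap, Finset.sum_eq_single (C.τ k)]
  · simp
  · intro l _ hl; simp [hl]
  · simp
  · intro q _ hq; simp [hq]
  · simp

/-- `x y z - z x y = x (y z + z y) - (x z + z x) y`, `car` -/
theorem F_γ (i : Fin 3) (p q r : L n) (l : K) : C.F i p q * C.γ r l - C.γ r l * C.F i p q =
    if C.col l = i then (if q = r then C.γ p l else 0) - (if p.swap = r then C.γ q.swap l else 0) else 0 := by
  have key : ∀ k, (C.γ p k * C.γ q.swap (C.τ k) - if p = q then (2⁻¹ : ℂ) • 1 else 0) * C.γ r l -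
      C.γ r l * (C.γ p k * C.γ q.swap (C.τ k) - if p = q then (2⁻¹ : ℂ) • 1 else 0) =
      (if k = l then (if q = r then C.γ p l else 0) else 0) -
        (if k = C.τ l then (if p.swap = r then C.γ q.swap l else 0) else 0) := by
    intro k
    have e : (C.γ p k * C.γ q.swap (C.τ k) - if p = q then (2⁻¹ : ℂ) • 1 else 0) * C.γ r l -
      C.γ r l * (C.γ p k * C.γ q.swap (C.τ k) - if p = q then (2⁻¹ : ℂ) • 1 else 0) =
        C.γ p k * (C.γ q.swap (C.τ k) * C.γ r l + C.γ r l * C.γ q.swap (C.τ k)) -
          (C.γ p k * C.γ r l + C.γ r l * C.γ p k) * C.γ q.swap (C.τ k) := by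
      split_ifs
      · simp only [sub_mul, mul_sub, smul_mul_assoc, mul_smul_comm, one_mul, mul_one, mul_add, add_mul, mul_assoc]
        abel
      · simp only [sub_zero, mul_add, add_mul, mul_assoc]
        abel
    rw [e, C.car, C.car, Sum.swap_swap, C.hτ]
    congr 1
    · by_cases h1 : k = l
      · subst h1
        by_cases h2 : q = r
        · subst h2; simp
        · simp [h2, Ne.symm h2]
      · simp [h1, Ne.symm h1]
    · by_cases h1 : k = C.τ l
      · subst h1
        rw [C.hτ]
        by_cases h2 : p.swap = r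
        · subst h2; simp
        · simp [h2, Ne.symm h2]
      · have : ¬ l = C.τ k := fun h => h1 (by rw [h, C.hτ])
        simp [h1, this]
  unfold F
  rw [Finset.sum_mul, Finset.mul_sum, ← Finset.sum_sub_distrib]
  simp only [key]
  rw [Finset.sum_sub_distrib, Finset.sum_ite_eq', Finset.sum_ite_eq']
  simp only [Finset.mem_filter, Finset.mem_univ, true_and, C.hcol]
  split_ifs <;> simp

/-- reindex by `τ`, `car` -/
theorem F_skew (i : Fin 3) (p q : L n) : C.F i p q = -C.F i q.swap p.swap := by
  unfold F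
  rw [← Finset.sum_neg_distrib]
  refine Finset.sum_nbij' C.τ C.τ ?_ ?_ ?_ ?_ ?_
  · intro k hk; simpa [C.hcol] using hk
  · intro k hk; simpa [C.hcol] using hk
  · intro k _; exact C.hτ k
  · intro k _; exact C.hτ k
  · intro k _
    rw [Sum.swap_swap, C.hτ]
    have h := C.car p k q.swap (C.τ k)
    by_cases hpq : p = q
    · subst hpq
      simp only [and_self, if_true] at h ⊢
      have h2 : (1 : Module.End ℂ S) = (2⁻¹ : ℂ) • 1 + (2⁻¹ : ℂ) • 1 := by
        rw [← add_smul]; norm_num
      rw [h2] at h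
      rw [← sub_eq_zero, ← sub_eq_zero.2 h]
      abel
    · have h3 : ¬ q.swap = p.swap := fun h' => hpq (by
        have := congrArg Sum.swap h'
        simpa using this.symm)
      simp only [h3, hpq, false_and, if_false, sub_zero] at h ⊢
      exact eq_neg_of_add_eq_zero_left h

/-- the quadratic part of `F` -/
def clb_G (i : Fin 3) (p q : L n) : Module.End ℂ S :=
  ∑ k ∈ Finset.univ.filter (fun k => C.col k = i), C.γ p k * C.γ q (C.τ k)

/-- the scalar part of `F` -/
def clb_N (i : Fin 3) : Module.End ℂ S := ∑ k ∈ Finset.univ.filter (fun k => C.col k = i), (2⁻¹ : ℂ) • (1 : Module.End ℂ S)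

theorem clb_F (i : Fin 3) (p q : L n) : C.F i p q = C.clb_G i p q.swap - if p = q then C.clb_N i else 0 := by
  unfold F clb_G clb_N
  rw [Finset.sum_sub_distrib]
  congr 1
  split_ifs <;> simp

theorem clb_N_comm (i : Fin 3) (x : Module.End ℂ S) : x * C.clb_N i = C.clb_N i * x := by
  unfold clb_N
  rw [Finset.mul_sum, Finset.sum_mul]
  exact Finset.sum_congr rfl fun k _ => by simp

theorem clb_FG (i j : Fin 3) (p q r s : L n) : C.F i p q * C.clb_G j r s - C.clb_G j r s * C.F i p q =
    ∑ k ∈ Finset.univ.filter (fun k => C.col k = j),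
      ((C.F i p q * C.γ r k - C.γ r k * C.F i p q) * C.γ s (C.τ k) +
        C.γ r k * (C.F i p q * C.γ s (C.τ k) - C.γ s (C.τ k) * C.F i p q)) := by
  unfold clb_G
  rw [Finset.mul_sum, Finset.sum_mul, ← Finset.sum_sub_distrib]
  exact Finset.sum_congr rfl fun k _ => by noncomm_ring

theorem clb_FF (i j : Fin 3) (p q r s : L n) : C.F i p q * C.F j r s - C.F j r s * C.F i p q =
    C.F i p q * C.clb_G j r s.swap - C.clb_G j r s.swap * C.F i p q := by
  rw [C.clb_F j r s, mul_sub, sub_mul]
  split_ifs
  · rw [C.clb_N_comm]; abel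
  · simp

theorem clb_FG_eq (i : Fin 3) (p q r s : L n) : C.F i p q * C.clb_G i r s - C.clb_G i r s * C.F i p q =
    (if q = r then C.clb_G i p s else 0) - (if p.swap = r then C.clb_G i q.swap s else 0) +
    ((if q = s then C.clb_G i r p else 0) - (if p.swap = s then C.clb_G i r q.swap else 0)) := by
  rw [clb_FG]
  have e : ∀ k ∈ Finset.univ.filter (fun k => C.col k = i),
      ((C.F i p q * C.γ r k - C.γ r k * C.F i p q) * C.γ s (C.τ k) +
        C.γ r k * (C.F i p q * C.γ s (C.τ k) - C.γ s (C.τ k) * C.F i p q)) =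
      (if q = r then C.γ p k * C.γ s (C.τ k) else 0) - (if p.swap = r then C.γ q.swap k * C.γ s (C.τ k) else 0) +
        ((if q = s then C.γ r k * C.γ p (C.τ k) else 0) - (if p.swap = s then C.γ r k * C.γ q.swap (C.τ k) else 0)) := by
    intro k hk
    have hk' := (Finset.mem_filter.1 hk).2
    rw [F_γ, F_γ, if_pos hk', if_pos ((C.hcol k).trans hk'), sub_mul, mul_sub]
    simp only [ite_mul, mul_ite, zero_mul, mul_zero]
  rw [Finset.sum_congr rfl e, Finset.sum_add_distrib, Finset.sum_sub_distrib, Finset.sum_sub_distrib]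
  unfold clb_G
  simp only [Finset.sum_ite_irrel, Finset.sum_const_zero]

/-- `[F, x y] = [F, x] y + x [F, y]`, `F_γ`, `F_skew` (the scalar terms cancel) -/
theorem F_comm (i : Fin 3) (p q r s : L n) : C.F i p q * C.F i r s - C.F i r s * C.F i p q =
    (if q = r then C.F i p s else 0) - (if p = s then C.F i r q else 0) -
    (if q = s.swap then C.F i p r.swap else 0) - (if p.swap = r then C.F i q.swap s else 0) := by
  rw [clb_FF, clb_FG_eq, C.F_skew i p r.swap, C.clb_F i p s, C.clb_F i r q, C.clb_F i q.swap s, C.clb_F i r.swap.swap p.swap]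
  simp only [Sum.swap_swap]
  have h1 : (p.swap = s.swap) ↔ (p = s) := ⟨fun h => by simpa using congrArg Sum.swap h, fun h => by rw [h]⟩
  have h2 : (q.swap = s) ↔ (q = s.swap) := ⟨fun h => by rw [← h, Sum.swap_swap], fun h => by rw [h, Sum.swap_swap]⟩
  have h3 : (r = p.swap) ↔ (p.swap = r) := eq_comm
  have h4 : (r = q) ↔ (q = r) := eq_comm
  simp only [h1, h2, h3, h4]
  split_ifs <;> abel

/-- `F_γ`, `hcol` -/
theorem F_commute {i j : Fin 3} (h : i ≠ j) (p q r s : L n) : C.F i p q * C.F j r s = C.F j r s * C.F i p q := by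
  rw [← sub_eq_zero, clb_FF, clb_FG]
  refine Finset.sum_eq_zero fun k hk => ?_
  have hk' : C.col k ≠ i := fun e => h (e.symm.trans (Finset.mem_filter.1 hk).2)
  rw [F_γ, F_γ, if_neg hk', if_neg (by rw [C.hcol]; exact hk')]
  simp

/-- the weight of the vacuum -/
theorem F_vac_H {J : L n → K → Prop} [∀ p k, Decidable (J p k)] (hJ : ∀ p k, J p.swap (C.τ k) ↔ ¬J p k) {v : S}
    (hv : ∀ p k, J p k → C.γ p k v = 0) (i : Fin 3) (p : L n) :
    C.F i p p v = (((∑ k ∈ Finset.univ.filter (fun k => C.col k = i), if J p k then 1 else -1 : ℤ) : ℂ) / 2) • v := by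
  unfold F
  rw [LinearMap.sum_apply, Int.cast_sum, Finset.sum_div, Finset.sum_smul]
  refine Finset.sum_congr rfl fun k _ => ?_
  rw [if_pos rfl, LinearMap.sub_apply, Module.End.mul_apply, LinearMap.smul_apply, Module.End.one_apply]
  by_cases hk : J p k
  · have h1 := congrArg (fun f : Module.End ℂ S => f v) (C.car p k p.swap (C.τ k))
    simp only [and_self, if_true, LinearMap.add_apply, Module.End.mul_apply, hv p k hk, map_zero, add_zero,
      Module.End.one_apply] at h1
    rw [h1, if_pos hk]
    push_cast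
    module
  · rw [hv _ _ ((hJ p k).2 hk), map_zero, if_neg hk]
    push_cast
    module

/-- the vacuum is killed by the positive root vectors -/
theorem F_vac_E {J : L n → K → Prop} (hJ : ∀ p k, J p.swap (C.τ k) ↔ ¬J p k) {v : S}
    (hv : ∀ p k, J p k → C.γ p k v = 0) (i : Fin 3) {p q : L n} (hpq : p ≠ q) (h : ∀ k, J q k → J p k) : C.F i p q v = 0 := by
  unfold F
  rw [LinearMap.sum_apply]
  refine Finset.sum_eq_zero fun k _ => ?_
  rw [if_neg hpq, sub_zero, Module.End.mul_apply]
  by_cases hk : J q k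
  · have h1 := congrArg (fun f : Module.End ℂ S => f v) (C.car p k q.swap (C.τ k))
    have hne : ¬(q.swap = p.swap ∧ C.τ k = C.τ k) := fun e => hpq (by
      have := congrArg Sum.swap e.1
      simpa using this.symm)
    rw [if_neg hne] at h1
    simp only [LinearMap.add_apply, Module.End.mul_apply, hv p k (h k hk), map_zero, add_zero,
      LinearMap.zero_apply] at h1
    exact h1
  · rw [hv _ _ ((hJ q k).2 hk), map_zero]

end CD
end Crest.Agent.R172.Pf
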