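import Crest.Agent.R172.W.Main

/-! # R172/Q/Pf: S_PF (transversality of Lagrangians gives an invariant).  Definitions (owner helper92; FROZEN). -/

set_option autoImplicit false
set_option linter.unusedVariables false
set_option linter.unusedSectionVars false
open Matrix Sum Crest.AlgebraR.SpinSaturation Crest.Agent.R172.W

noncomputable section
namespace Crest.Agent.R172.Pf

variable {n : ℕ}

/-- representations of `so(2n)` by endomorphisms; `F p q` represents `Xm p q` -/
structure ERep (n : ℕ) (S : Type) [AddCommGroup S] [Module ℂ S] where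
  F : L n → L n → Module.End ℂ S
  skew : ∀ p q, F p q = -F q.swap p.swap
  comm : ∀ p q r s, F p q * F r s - F r s * F p q = (if q = r then F p s else 0) - (if p = s then F r q else 0) -
    (if q = s.swap then F p r.swap else 0) - (if p.swap = r then F q.swap s else 0)

/-- a Clifford module for `W ⊗ V`, `V = K → ℂ` with the form `∑ k, u k * u' (τ k)`, coloured by `Fin 3` -/
structure CD (n : ℕ) (K : Type) [Fintype K] [DecidableEq K] (S : Type) [AddCommGroup S] [Module ℂ S] where
  τ : K → K
  hτ : ∀ k, τ (τ k) = k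
  col : K → Fin 3
  hcol : ∀ k, col (τ k) = col k
  γ : L n → K → Module.End ℂ S
  car : ∀ p k q l, γ p k * γ q l + γ q l * γ p k = if q = p.swap ∧ l = τ k then 1 else 0

/-- the generators of the group -/
def gens (n : ℕ) : Set (Matrix (L n) (L n) ℂ) := {x | ∃ (p q : L n) (t : ℂ), p ≠ q ∧ x = 1 + t • Xm p q}

/-- a matrix acting on the columns of colour `i` -/
def actc {K : Type} (col : K → Fin 3) (i : Fin 3) (g : Matrix (L n) (L n) ℂ) (y : L n → K → ℂ) : L n → K → ℂ :=
  fun p k => if col k = i then (g *ᵥ fun q => y q k) p else y p k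

namespace CD
variable {K : Type} [Fintype K] [DecidableEq K] {S : Type} [AddCommGroup S] [Module ℂ S] (C : CD n K S)

/-- Clifford multiplication -/
def c (y : L n → K → ℂ) : Module.End ℂ S := ∑ p, ∑ k, y p k • C.γ p k
/-- the form on `W ⊗ V` -/
def B (y z : L n → K → ℂ) : ℂ := ∑ p, ∑ k, y p k * z p.swap (C.τ k)
/-- the three actions of `so(2n)` -/
def F (i : Fin 3) (p q : L n) : Module.End ℂ S :=
  ∑ k ∈ Finset.univ.filter (fun k => C.col k = i), (C.γ p k * C.γ q.swap (C.τ k) - if p = q then (2⁻¹ : ℂ) • 1 else 0)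
/-- subspaces stable under the three actions -/
def St (N : Submodule ℂ S) : Prop := ∀ i p q, ∀ x ∈ N, C.F i p q x ∈ N
/-- `g` acting on the colour `i` lifts to the spinor module -/
def Lift (i : Fin 3) (g : Matrix (L n) (L n) ℂ) : Prop :=
  ∃ G : Module.End ℂ S, Function.Injective G ∧ (∀ N, C.St N → ∀ x ∈ N, G x ∈ N) ∧ ∀ y, G * C.c y = C.c (actc C.col i g y) * G
end CD

end Crest.Agent.R172.Pf
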