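import Crest.Agent.R172.Q.Pf.Cl

/-! R172/Q/Pf/Exp: lifting group elements -/

set_option autoImplicit false
set_option linter.unusedVariables false
set_option linter.unusedSectionVars false
open Matrix Sum Crest.AlgebraR.SpinSaturation Crest.Agent.R172.W

noncomputable section
namespace Crest.Agent.R172.Pf

/-- `e ^ m * x = x * e ^ m + m • (x' * e ^ (m - 1))`, `IsNilpotent.exp_eq_sum` -/
theorem exp_mul_eq {A : Type*} [Ring A] [Algebra ℚ A] {e x x' : A} (he : IsNilpotent e) (h1 : e * x - x * e = x') (h2 : e * x' = x' * e) :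
    IsNilpotent.exp e * x = (x + x') * IsNilpotent.exp e := by
  obtain ⟨k, hk⟩ := he
  have hk' : e ^ (k + 1) = 0 := by rw [pow_succ, hk, zero_mul]
  have h1' : e * x = x * e + x' := by rw [← h1]; abel
  have key : ∀ m : ℕ, e ^ (m + 1) * x = x * e ^ (m + 1) + ((m : ℚ) + 1) • (x' * e ^ m) := by
    intro m
    induction m with
    | zero => simpa using h1'
    | succ m ih =>
      rw [pow_succ' e (m + 1), mul_assoc, ih, mul_add, mul_smul_comm, ← mul_assoc e x, h1', ← mul_assoc e x', h2, add_mul,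
        mul_assoc x e, mul_assoc x' e, ← pow_succ' e m, add_assoc]
      congr 1
      rw [Nat.cast_succ, add_smul ((m : ℚ) + 1), one_smul, add_comm]
  have e2 : x' * IsNilpotent.exp e = ∑ i ∈ Finset.range k, (((i + 1).factorial : ℚ)⁻¹ * ((i : ℚ) + 1)) • (x' * e ^ i) := by
    rw [IsNilpotent.exp_eq_sum hk, Finset.mul_sum]
    refine Finset.sum_congr rfl fun i _ => ?_
    rw [mul_smul_comm]
    congr 1
    rw [Nat.factorial_succ]
    have : ((i.factorial : ℕ) : ℚ) ≠ 0 := by exact_mod_cast i.factorial_ne_zero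
    push_cast
    field_simp
  rw [add_mul, e2, IsNilpotent.exp_eq_sum hk', Finset.sum_mul, Finset.mul_sum, Finset.sum_range_succ', Finset.sum_range_succ',
    add_right_comm, ← Finset.sum_add_distrib]
  congr 1
  · refine Finset.sum_congr rfl fun i _ => ?_
    rw [smul_mul_assoc, key, smul_add, mul_smul_comm, smul_smul]
  · simp

namespace CD
variable {n : ℕ} {K : Type} [Fintype K] [DecidableEq K] {S : Type} [AddCommGroup S] [Module ℂ S] (C : CD n K S)

/-- a sum of commuting square-zero terms (`car`; for `q = p.swap` use `F_skew`: `F = -F`, so `F = 0`) -/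
theorem F_nil (i : Fin 3) {p q : L n} (h : p ≠ q) : IsNilpotent (C.F i p q) := by
  have hs : ∀ r : L n, r ≠ r.swap := fun r => by cases r <;> simp
  have aa : ∀ k l, C.γ p k * C.γ p l = -(C.γ p l * C.γ p k) := fun k l =>
    eq_neg_of_add_eq_zero_left (by rw [C.car, if_neg fun h' => hs p h'.1])
  have bb : ∀ k l, C.γ q.swap k * C.γ q.swap l = -(C.γ q.swap l * C.γ q.swap k) := fun k l =>
    eq_neg_of_add_eq_zero_left (by rw [C.car, if_neg fun h' => hs _ h'.1])
  have ba : ∀ k l, C.γ q.swap l * C.γ p k = -(C.γ p k * C.γ q.swap l) := fun k l =>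
    eq_neg_of_add_eq_zero_right (by rw [C.car, if_neg fun h' => h (liea_swap_inj.1 h'.1).symm])
  have prod : ∀ k k' l l', C.γ p k * C.γ q.swap k' * (C.γ p l * C.γ q.swap l') =
      -(C.γ p k * C.γ p l * (C.γ q.swap k' * C.γ q.swap l')) := fun k k' l l' => by
    rw [mul_assoc, ← mul_assoc (C.γ q.swap k'), ba, neg_mul, mul_neg, mul_assoc, mul_assoc]
  unfold F
  simp only [if_neg h, sub_zero]
  refine Commute.isNilpotent_sum (fun k _ => ⟨2, ?_⟩) fun k l _ _ => ?_
  · have h0 : C.γ p k * C.γ p k = 0 := by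
      have h2 : (2 : ℂ) • (C.γ p k * C.γ p k) = 0 := by rw [two_smul]; exact add_eq_zero_iff_eq_neg.2 (aa k k)
      exact (smul_eq_zero.1 h2).resolve_left two_ne_zero
    rw [pow_two, prod, h0, zero_mul, neg_zero]
  · change _ * _ = _ * _
    rw [prod, prod, aa k l, bb (C.τ k) (C.τ l), neg_mul_neg]

theorem _root_.Crest.Agent.R172.Pf.expB_mulVec (p q : L n) (u : L n → ℂ) (r : L n) :
    (Xm p q *ᵥ u) r = (if p = r then u q else 0) - (if q.swap = r then u p.swap else 0) := by
  simp only [Matrix.mulVec, dotProduct, liea_Xm, sub_mul, Finset.sum_sub_distrib]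
  congr 1
  · by_cases h : p = r
    · simp [h]
    · simp [h]
  · by_cases h : q.swap = r
    · simp [h]
    · simp [h]

theorem _root_.Crest.Agent.R172.Pf.expB_ne (p : L n) : p ≠ p.swap := by
  rcases p with p | p <;> simp

theorem _root_.Crest.Agent.R172.Pf.expB_skew (p q : L n) (u w : L n → ℂ) :
    ∑ r, (Xm p q *ᵥ u) r * w r.swap = -∑ r, u r * (Xm p q *ᵥ w) r.swap := by
  have e1 : ∀ r : L n, (p = r.swap) ↔ (p.swap = r) := fun r => liea_swap_eq.symm
  have e2 : ∀ r : L n, (q.swap = r.swap) ↔ (q = r) := fun r => liea_swap_inj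
  simp only [expB_mulVec, sub_mul, mul_sub, Finset.sum_sub_distrib, ite_mul, mul_ite, zero_mul, mul_zero, e1, e2,
    Finset.sum_ite_eq, Finset.mem_univ, if_true, Sum.swap_swap]
  ring

/-- `F_γ`, `liea_Xm` -/
theorem F_c (i : Fin 3) (p q : L n) (y : L n → K → ℂ) : C.F i p q * C.c y - C.c y * C.F i p q =
    C.c (fun r k => if C.col k = i then (Xm p q *ᵥ fun s => y s k) r else 0) := by
  have h1 : C.F i p q * C.c y - C.c y * C.F i p q =
      ∑ r, ∑ k, y r k • (C.F i p q * C.γ r k - C.γ r k * C.F i p q) := by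
    simp only [CD.c, Finset.mul_sum, Finset.sum_mul, ← Finset.sum_sub_distrib, smul_sub, mul_smul_comm, smul_mul_assoc]
  rw [h1]
  simp only [C.F_γ, CD.c]
  rw [Finset.sum_comm]
  conv_rhs => rw [Finset.sum_comm]
  refine Finset.sum_congr rfl fun k _ => ?_
  by_cases hk : C.col k = i
  · simp only [hk, if_true, expB_mulVec, smul_sub, sub_smul, Finset.sum_sub_distrib, smul_ite, ite_smul, smul_zero, zero_smul,
      Finset.sum_ite_eq, Finset.mem_univ]
  · simp [hk]

theorem Xm_sq {p q : L n} (h : p ≠ q) : Xm p q * Xm p q = 0 := by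
  have h1 : q ≠ p := h.symm
  have h2 : q ≠ q.swap := expB_ne q
  have h3 : p.swap ≠ p := (expB_ne p).symm
  have h4 : p.swap ≠ q.swap := fun e => h (liea_swap_inj.1 e)
  simp only [Xm, mul_sub, sub_mul, liea_mul, if_neg h1, if_neg h2, if_neg h3, if_neg h4, sub_self]

private theorem xc_c_add (y z : L n → K → ℂ) : C.c (y + z) = C.c y + C.c z := by
  simp only [c, Pi.add_apply, add_smul, Finset.sum_add_distrib]

private theorem xc_c_smul (t : ℂ) (y : L n → K → ℂ) : C.c (t • y) = t • C.c y := by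
  simp only [c, Pi.smul_apply, smul_eq_mul, Finset.smul_sum, mul_smul]

private theorem xc_c_zero : C.c 0 = 0 := by
  simp only [c, Pi.zero_apply, zero_smul, Finset.sum_const_zero]

private theorem xc_actc_mul (col : K → Fin 3) (i : Fin 3) (g h : Matrix (L n) (L n) ℂ) (y : L n → K → ℂ) :
    actc col i (g * h) y = actc col i g (actc col i h y) := by
  funext p k
  by_cases hk : col k = i
  · simp only [actc, hk, if_true, Matrix.mulVec_mulVec]
  · simp only [actc, hk, if_false]

private theorem xc_actc_one (col : K → Fin 3) (i : Fin 3) (y : L n → K → ℂ) :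
    actc col i (1 : Matrix (L n) (L n) ℂ) y = y := by
  funext p k
  by_cases hk : col k = i
  · simp only [actc, hk, if_true, Matrix.one_mulVec]
  · simp only [actc, hk, if_false]

/-- `G = exp (t • F i p q)`, `IsNilpotent.isUnit_exp`, `exp_mul_eq`, `F_c`, `Xm_sq` -/
theorem lift_gen (i : Fin 3) {g : Matrix (L n) (L n) ℂ} (hg : g ∈ gens n) : C.Lift i g := by
  obtain ⟨p, q, t, hpq, rfl⟩ := hg
  letI : Algebra ℚ (Module.End ℂ S) := Algebra.compHom _ (algebraMap ℚ ℂ)
  have hsm : ∀ (r : ℚ) (x : Module.End ℂ S), r • x = (r : ℂ) • x := fun r x => rfl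
  have hnil : IsNilpotent (t • C.F i p q) := (C.F_nil i hpq).smul t
  refine ⟨IsNilpotent.exp (t • C.F i p q), ?_, ?_, ?_⟩
  · exact ((Module.End.isUnit_iff _).1 (IsNilpotent.isUnit_exp hnil)).1
  · intro N hN x hx
    have hpow : ∀ m : ℕ, ((t • C.F i p q) ^ m) x ∈ N := by
      intro m
      induction m with
      | zero => simpa using hx
      | succ m ih =>
        rw [pow_succ', Module.End.mul_apply, LinearMap.smul_apply]
        exact N.smul_mem _ (hN i p q _ ih)
    rw [IsNilpotent.exp, LinearMap.sum_apply]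
    refine N.sum_mem fun m _ => ?_
    rw [hsm, LinearMap.smul_apply]
    exact N.smul_mem _ (hpow m)
  · intro y
    let D : (L n → K → ℂ) → L n → K → ℂ := fun y r k => if C.col k = i then (Xm p q *ᵥ fun s => y s k) r else 0
    have hD : ∀ y, C.F i p q * C.c y - C.c y * C.F i p q = C.c (D y) := fun y => C.F_c i p q y
    have hDD : D (D y) = 0 := by
      funext r k
      by_cases hk : C.col k = i
      · simp only [D, hk, if_true, Matrix.mulVec_mulVec, Xm_sq hpq, Matrix.zero_mulVec, Pi.zero_apply]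
      · simp only [D, hk, if_false, Pi.zero_apply]
    have h1 : (t • C.F i p q) * C.c y - C.c y * (t • C.F i p q) = t • C.c (D y) := by
      rw [smul_mul_assoc, mul_smul_comm, ← smul_sub, hD]
    have h2 : (t • C.F i p q) * (t • C.c (D y)) = (t • C.c (D y)) * (t • C.F i p q) := by
      have h3 := hD (D y)
      rw [hDD, xc_c_zero, sub_eq_zero] at h3
      rw [smul_mul_assoc, mul_smul_comm, smul_mul_assoc, mul_smul_comm, h3]
    rw [exp_mul_eq hnil h1 h2, ← xc_c_smul, ← xc_c_add]
    congr 2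
    funext r k
    by_cases hk : C.col k = i
    · simp only [actc, D, hk, if_true, Pi.add_apply, Pi.smul_apply, Matrix.add_mulVec, Matrix.one_mulVec, Matrix.smul_mulVec]
    · simp only [actc, D, hk, if_false, Pi.add_apply, Pi.smul_apply, smul_zero, add_zero]

/-- `Submonoid.closure_induction` -/
theorem lift_closure (i : Fin 3) {g : Matrix (L n) (L n) ℂ} (hg : g ∈ Submonoid.closure (gens n)) : C.Lift i g := by
  induction hg using Submonoid.closure_induction with
  | mem x hx => exact C.lift_gen i hx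
  | one =>
    refine ⟨1, fun a b h => h, fun N _ x hx => hx, fun y => ?_⟩
    rw [xc_actc_one, one_mul, mul_one]
  | mul x z _ _ hx hz =>
    obtain ⟨G, hG, hGN, hGc⟩ := hx
    obtain ⟨H, hH, hHN, hHc⟩ := hz
    refine ⟨G * H, hG.comp hH, fun N hN a ha => hGN N hN _ (hHN N hN a ha), fun y => ?_⟩
    rw [xc_actc_mul, mul_assoc, hHc, ← mul_assoc, hGc, mul_assoc]

end CD

/-- the group preserves the form: true for the generators (`Xm_sq`, skewness), `Submonoid.closure_induction` -/
theorem orth_closure {n : ℕ} {g : Matrix (L n) (L n) ℂ} (hg : g ∈ Submonoid.closure (gens n)) :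
    (∀ u w : L n → ℂ, ∑ p, (g *ᵥ u) p * (g *ᵥ w) p.swap = ∑ p, u p * w p.swap) ∧ Function.Surjective g.mulVec := by
  induction hg using Submonoid.closure_induction with
  | mem x hx =>
    obtain ⟨p, q, t, hpq, rfl⟩ := hx
    have hsq : ∀ w : L n → ℂ, Xm p q *ᵥ (Xm p q *ᵥ w) = 0 := fun w => by
      rw [Matrix.mulVec_mulVec, CD.Xm_sq hpq, Matrix.zero_mulVec]
    have happ : ∀ w : L n → ℂ, (1 + t • Xm p q) *ᵥ w = w + t • (Xm p q *ᵥ w) := fun w => by
      rw [Matrix.add_mulVec, Matrix.one_mulVec, Matrix.smul_mulVec]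
    refine ⟨fun u w => ?_, fun w => ⟨w - t • (Xm p q *ᵥ w), ?_⟩⟩
    · have a1 := expB_skew p q u w
      have a2 := expB_skew p q u (Xm p q *ᵥ w)
      rw [hsq] at a2
      simp only [Pi.zero_apply, mul_zero, Finset.sum_const_zero, neg_zero] at a2
      have : ∀ r : L n, ((1 + t • Xm p q) *ᵥ u) r * ((1 + t • Xm p q) *ᵥ w) r.swap =
          u r * w r.swap + t * ((Xm p q *ᵥ u) r * w r.swap) + t * (u r * (Xm p q *ᵥ w) r.swap) +
            t ^ 2 * ((Xm p q *ᵥ u) r * (Xm p q *ᵥ w) r.swap) := fun r => by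
        simp only [happ, Pi.add_apply, Pi.smul_apply, smul_eq_mul]; ring
      simp only [this, Finset.sum_add_distrib, ← Finset.mul_sum, a1, a2]
      ring
    · rw [happ, Matrix.mulVec_sub, Matrix.mulVec_smul, hsq, smul_zero, sub_zero, sub_add_cancel]
  | one => exact ⟨fun u w => by simp, fun w => ⟨w, by simp⟩⟩
  | mul x y _ _ hx hy =>
    refine ⟨fun u w => ?_, fun w => ?_⟩
    · rw [← Matrix.mulVec_mulVec, ← Matrix.mulVec_mulVec, hx.1, hy.1]
    · obtain ⟨a, rfl⟩ := hx.2 w
      obtain ⟨b, rfl⟩ := hy.2 a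
      exact ⟨b, by rw [← Matrix.mulVec_mulVec]⟩

end Crest.Agent.R172.Pf
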