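import Crest.Agent.R172.Q.Pf.Defs

/-! R172/Q/Pf/Link: three commuting actions and an invariant functional give an invariant -/

set_option autoImplicit false
set_option linter.unusedVariables false
set_option linter.unusedSectionVars false
open Matrix Sum Crest.AlgebraR.SpinSaturation Crest.Agent.R172.W

noncomputable section
namespace Crest.Agent.R172.Pf

variable {n : ℕ}

section
variable {ι : Type*} [Fintype ι] [DecidableEq ι]

theorem inv_left (R : MRep n ι) {w : ι → ℂ} (hw : w ≠ 0) (h : ∀ p q, w ᵥ* R.F p q = 0) : (dl n * chw R.wt).coeff (rho n) ≠ 0 := by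
  obtain ⟨π, ψ, N, h1, h2, h3, h4, h5⟩ := fitting R.Cas
  have hπ : R.Cm π := fun p q => (h5 _ (R.cm_Cas p q)).1
  have h6 : w ᵥ* R.Cas = 0 := by
    have h7 : w ᵥ* ((2 : ℂ) • R.Cas) = 0 := by
      simp only [R.two_Cas, Matrix.vecMul_sum, ← vecMul_vecMul, h, zero_vecMul, Finset.sum_const_zero]
    rw [vecMul_smul] at h7
    exact (smul_eq_zero.1 h7).resolve_left two_ne_zero
  obtain ⟨l, hl⟩ : ∃ l, (fun k => π k l) ≠ 0 := by
    by_contra hcon
    push Not at hcon
    have h0 : π = 0 := by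
      ext k l
      exact congrFun (hcon l) k
    exact hw (by rw [← vecMul_one w, h2, h0, zero_add, ← vecMul_vecMul, h6, zero_vecMul])
  exact R.inv_iff.1 ⟨_, hl, (R.col_zero hπ h3 hl).2⟩

theorem sub_mul (P : ι → Prop) [DecidablePred P] (M M' : Matrix ι ι ℂ) (hP : ∀ k l, M k l ≠ 0 → P k → P l) :
    (M * M').submatrix (Subtype.val : {k // P k} → ι) (Subtype.val : {k // P k} → ι) =
      M.submatrix Subtype.val (Subtype.val : {k // P k} → ι) * M'.submatrix Subtype.val Subtype.val := by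
  ext k l
  simp only [submatrix_apply, mul_apply]
  rw [← Fintype.sum_subtype_add_sum_subtype P, Finset.sum_eq_zero (s := (Finset.univ : Finset {k // ¬P k})), add_zero]
  intro j _
  by_cases h : M k j = 0
  · rw [h, zero_mul]
  · exact absurd (hP _ _ h k.2) j.2

/-- a block of a matrix representation -/
def sub (R : MRep n ι) (P : ι → Prop) [DecidablePred P] (hP : ∀ p q k l, R.F p q k l ≠ 0 → P k → P l) : MRep n {k // P k} where
  F p q := (R.F p q).submatrix Subtype.val Subtype.val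
  wt k := R.wt k
  skew p q := by rw [R.skew p q]; rfl
  comm p q r s := by
    rw [← sub_mul P _ _ (hP p q), ← sub_mul P _ _ (hP r s)]
    have := congrArg (fun M : Matrix ι ι ℂ => M.submatrix (Subtype.val : {k // P k} → ι) (Subtype.val : {k // P k} → ι)) (R.comm p q r s)
    refine this.trans ?_
    split_ifs <;> rfl
  diag i := by
    rw [R.diag i]
    ext k l
    simp only [submatrix_apply, diagonal_apply, Subtype.ext_iff]

theorem sub_Cas (R : MRep n ι) (P : ι → Prop) [DecidablePred P] (hP : ∀ p q k l, R.F p q k l ≠ 0 → P k → P l) {c : ℂ}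
    (hC : R.Cas = c • (1 : Matrix ι ι ℂ)) : (sub R P hP).Cas = c • (1 : Matrix _ _ ℂ) := by
  have h1 : (2 : ℂ) • (sub R P hP).Cas = ((2 : ℂ) • R.Cas).submatrix Subtype.val Subtype.val := by
    rw [MRep.two_Cas, MRep.two_Cas]
    ext k l
    simp only [submatrix_apply, Matrix.sum_apply]
    refine Finset.sum_congr rfl fun p _ => Finset.sum_congr rfl fun q _ => ?_
    exact (congrFun (congrFun (sub_mul P (R.F p q) (R.F q p) (hP p q)) k) l).symm
  rw [hC] at h1
  ext k l
  have := congrFun (congrFun h1 k) l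
  simp only [submatrix_apply, Matrix.smul_apply, one_apply, smul_eq_mul, Subtype.ext_iff] at this ⊢
  exact mul_left_cancel₀ two_ne_zero this

theorem peel (R : MRep n ι) {a : Wt n} (ha : Dom a) (hC : R.Cas = cas a • (1 : Matrix ι ι ℂ)) (hle : ∀ k, Le (R.wt k) a)
    {G : Type*} (w : ι → G) (hw : ∀ p q k l, R.F p q k l ≠ 0 → w k = w l) (g : G → GR n) :
    dl n * ∑ k, ex (R.wt k) * g (w k) = A (a + rho n) * ∑ k, (dl n).coeff (a + rho n - R.wt k) • g (w k) := by
  classical
  rw [← Finset.sum_fiberwise_of_maps_to (s := Finset.univ) (t := Finset.univ.image w) (g := w) (fun k hk => Finset.mem_image_of_mem w hk),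
    ← Finset.sum_fiberwise_of_maps_to (s := Finset.univ) (t := Finset.univ.image w) (g := w) (fun k hk => Finset.mem_image_of_mem w hk)
      (fun k => (dl n).coeff (a + rho n - R.wt k) • g (w k)), Finset.mul_sum, Finset.mul_sum]
  refine Finset.sum_congr rfl fun μ hμ => ?_
  obtain ⟨k₀, -, hk₀⟩ := Finset.mem_image.1 hμ
  have hP : ∀ p q k l, R.F p q k l ≠ 0 → w k = μ → w l = μ := fun p q k l h h' => (hw p q k l h).symm.trans h'
  have : Nonempty {k // w k = μ} := ⟨⟨k₀, hk₀⟩⟩
  obtain ⟨m, -, hm⟩ := (sub R (fun k => w k = μ) hP).wcf ha (sub_Cas R _ hP hC) fun k => hle k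
  have e0 : chw (sub R (fun k => w k = μ) hP).wt = ∑ k ∈ Finset.univ.filter (fun k => w k = μ), ex (R.wt k) := by
    rw [chw, Finset.sum_subtype (Finset.univ.filter (fun k => w k = μ)) (p := fun k => w k = μ) (by simp)]
    rfl
  rw [e0] at hm
  have e1 : m = ∑ k ∈ Finset.univ.filter (fun k => w k = μ), (dl n).coeff (a + rho n - R.wt k) := by
    have := congrArg (fun f : GR n => f.coeff (a + rho n)) hm
    simp only [AddMonoidAlgebra.coeff_smul_apply, coeff_A_sdom (ha.add_sdom sdom_rho) (ha.add_sdom sdom_rho).dom, if_true,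
      smul_eq_mul, mul_one] at this
    rw [← this, mul_comm, Finset.sum_mul, AddMonoidAlgebra.coeff_sum, Finsupp.finsetSum_apply]
    exact Finset.sum_congr rfl fun k _ => coeff_ex_mul _ _ _
  rw [Finset.sum_congr rfl (g := fun k => ex (R.wt k) * g μ) fun k hk => by rw [(Finset.mem_filter.1 hk).2],
    Finset.sum_congr rfl (f := fun k => (dl n).coeff (a + rho n - R.wt k) • g (w k))
      (g := fun k => (dl n).coeff (a + rho n - R.wt k) • g μ) fun k hk => by rw [(Finset.mem_filter.1 hk).2],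
    ← Finset.sum_mul, ← Finset.sum_smul, ← e1, ← mul_assoc, hm, smul_mul_assoc, mul_smul_comm]

/-- the matrix form of the link -/
theorem link_mat (R : Fin 3 → MRep n ι) (R' : MRep n ι) (hwt : ∀ k, R'.wt k = (R 0).wt k + ((R 1).wt k + (R 2).wt k))
    (hc : ∀ i j, i ≠ j → ∀ p q k l, (R i).F p q k l ≠ 0 → (R j).wt k = (R j).wt l) (a : Fin 3 → Wt n) (ha : ∀ i, Dom (a i))
    (hC : ∀ i, (R i).Cas = cas (a i) • (1 : Matrix ι ι ℂ)) (hle : ∀ i k, Le ((R i).wt k) (a i))
    {w : ι → ℂ} (hw : w ≠ 0) (h : ∀ p q, w ᵥ* R'.F p q = 0)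
    (U : Irrep n (a 0)) (V : Irrep n (a 1)) (W : Irrep n (a 2)) : HasInvariant U V W := by
  obtain ⟨d₁, b₁, w₁, m₁, h₁, s₁, hm₁, e₁⟩ := irrep_wcf (ha 0) U
  obtain ⟨d₂, b₂, w₂, m₂, h₂, s₂, hm₂, e₂⟩ := irrep_wcf (ha 1) V
  obtain ⟨d₃, b₃, w₃, m₃, h₃, s₃, hm₃, e₃⟩ := irrep_wcf (ha 2) W
  have hb' : ∀ k : Fin (d₁ + 1) × Fin (d₂ + 1) × Fin (d₃ + 1), IsWV (w₁ k.1 + (w₂ k.2.1 + w₃ k.2.2))
      ((b₁.tensorProduct (b₂.tensorProduct b₃)) k) := by
    rintro ⟨i, j, k⟩
    rw [Module.Basis.tensorProduct_apply, Module.Basis.tensorProduct_apply]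
    exact (h₁ i).tmul ((h₂ j).tmul (h₃ k))
  have hch : chw (fun k : Fin (d₁ + 1) × Fin (d₂ + 1) × Fin (d₃ + 1) => w₁ k.1 + (w₂ k.2.1 + w₃ k.2.2)) =
      chw w₁ * (chw w₂ * chw w₃) := by
    rw [← chw_prod w₂ w₃]
    exact chw_prod w₁ fun k : Fin (d₂ + 1) × Fin (d₃ + 1) => w₂ k.1 + w₃ k.2
  have key := (inv_toMRep _ _ hb').trans (toMRep _ _ hb').inv_iff
  change HasInvariant U V W ↔ (dl n * chw fun k : Fin (d₁ + 1) × Fin (d₂ + 1) × Fin (d₃ + 1) =>
    w₁ k.1 + (w₂ k.2.1 + w₃ k.2.2)).coeff (rho n) ≠ 0 at key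
  rw [key, hch]
  have p0 := peel (R 0) (ha 0) (hC 0) (hle 0) (fun k => ((R 1).wt k, (R 2).wt k))
    (fun p q k l h => Prod.ext (hc 0 1 (by decide) p q k l h) (hc 0 2 (by decide) p q k l h)) (fun μ => ex μ.1 * ex μ.2)
  have p1 := peel (R 1) (ha 1) (hC 1) (hle 1) (fun k => ((R 0).wt k, (R 2).wt k))
    (fun p q k l h => Prod.ext (hc 1 0 (by decide) p q k l h) (hc 1 2 (by decide) p q k l h))
    (fun μ => (dl n).coeff (a 0 + rho n - μ.1) • ex μ.2)
  have p2 := peel (R 2) (ha 2) (hC 2) (hle 2) (fun k => ((R 0).wt k, (R 1).wt k))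
    (fun p q k l h => Prod.ext (hc 2 0 (by decide) p q k l h) (hc 2 1 (by decide) p q k l h))
    (fun μ => ((dl n).coeff (a 1 + rho n - μ.2) * (dl n).coeff (a 0 + rho n - μ.1)) • (1 : GR n))
  simp only [mul_smul_comm, smul_smul, mul_one, ← Finset.sum_smul] at p0 p1 p2
  generalize ∑ k, (dl n).coeff (a 2 + rho n - (R 2).wt k) * ((dl n).coeff (a 1 + rho n - (R 1).wt k) *
    (dl n).coeff (a 0 + rho n - (R 0).wt k)) = m at p2
  have e0 : chw R'.wt = ∑ k, ex ((R 0).wt k) * (ex ((R 1).wt k) * ex ((R 2).wt k)) := by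
    rw [chw]
    exact Finset.sum_congr rfl fun k _ => by rw [hwt, ex_add, ex_add]
  have e4 : (m₁ * m₂ * m₃) • chw R'.wt = m • (chw w₁ * (chw w₂ * chw w₃)) := by
    apply mul_left_cancel₀ (dl_ne_zero (n := n))
    apply mul_left_cancel₀ (dl_ne_zero (n := n))
    apply mul_left_cancel₀ (dl_ne_zero (n := n))
    have l1 : dl n * (dl n * (dl n * chw R'.wt)) = m • (A (a 0 + rho n) * (A (a 1 + rho n) * A (a 2 + rho n))) := by
      rw [e0, p0, mul_left_comm (dl n) (A (a 0 + rho n)), p1, mul_left_comm (dl n) (A (a 0 + rho n)), mul_left_comm (dl n) (A (a 1 + rho n)), p2,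
        mul_smul_comm, mul_smul_comm]
    have l2 : dl n * (dl n * (dl n * (chw w₁ * (chw w₂ * chw w₃)))) =
        (m₁ * m₂ * m₃) • (A (a 0 + rho n) * (A (a 1 + rho n) * A (a 2 + rho n))) := by
      rw [mul_assoc m₁, ← smul_mul_smul_comm, ← smul_mul_smul_comm, ← e₁, ← e₂, ← e₃]
      ring
    simp only [mul_smul_comm]
    rw [l1, l2, smul_comm]
  intro h0
  have h1 := congrArg (fun f : GR n => (dl n * f).coeff (rho n)) e4
  simp only [mul_smul_comm, AddMonoidAlgebra.coeff_smul_apply, h0, smul_eq_mul, mul_zero] at h1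
  exact mul_ne_zero (mul_ne_zero (mul_ne_zero hm₁ hm₂) hm₃) (inv_left R' hw h) h1
end

section
variable {S : Type} [AddCommGroup S] [Module ℂ S]

theorem ERep.H_F (R : ERep n S) (i : Fin n) (p q : L n) :
    R.F (inl i) (inl i) * R.F p q - R.F p q * R.F (inl i) (inl i) = (((ev p - ev q) i : ℤ) : ℂ) • R.F p q := by
  rw [R.comm]
  have h1 : (if inl i = p then R.F (inl i) q else 0) = (if inl i = p then (1 : ℂ) else 0) • R.F p q := by
    split_ifs with h
    · rw [h, one_smul]
    · rw [zero_smul]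
  have h2 : (if inl i = q then R.F p (inl i) else 0) = (if inl i = q then (1 : ℂ) else 0) • R.F p q := by
    split_ifs with h
    · rw [h, one_smul]
    · rw [zero_smul]
  have h3 : (if inl i = q.swap then R.F (inl i) p.swap else 0) = -((if inl i = q.swap then (1 : ℂ) else 0) • R.F p q) := by
    split_ifs with h
    · rw [h, one_smul, R.skew p q, neg_neg]
    · rw [zero_smul, neg_zero]
  have h4 : (if (inl i : L n).swap = p then R.F (inl i : L n).swap q else 0) =
      (if (inl i : L n).swap = p then (1 : ℂ) else 0) • R.F p q := by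
    split_ifs with h
    · rw [h, one_smul]
    · rw [zero_smul]
  rw [h1, h2, h3, h4, sub_neg_eq_add, ← sub_smul, ← add_smul, ← sub_smul]
  congr 1
  rcases p with a | a <;> rcases q with b | b <;>
    simp only [ev, Sum.elim_inl, Sum.elim_inr, Pi.sub_apply, Pi.neg_apply, Pi.single_apply, Sum.swap_inl, Sum.swap_inr,
      Sum.inl.injEq, Sum.inr.injEq, reduceCtorEq, if_false] <;>
    split_ifs <;> norm_num

/-- the matrices of a representation in a weight basis -/
def ERep.toM {ι : Type*} [Fintype ι] [DecidableEq ι] (R : ERep n S) (b : Module.Basis ι ℂ S) (wt : ι → Wt n)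
    (h : ∀ k i, R.F (inl i) (inl i) (b k) = ((wt k i : ℂ) / 2) • b k) : MRep n ι where
  F p q := LinearMap.toMatrix b b (R.F p q)
  wt := wt
  skew p q := by rw [R.skew p q, map_neg]
  comm p q r s := by
    rw [← LinearMap.toMatrix_mul, ← LinearMap.toMatrix_mul, ← map_sub, R.comm]
    simp only [map_sub]
    split_ifs <;> simp only [map_zero]
  diag i := by
    ext k l
    rw [LinearMap.toMatrix_apply, h l i, map_smul, Finsupp.smul_apply, b.repr_self, Finsupp.single_apply, diagonal_apply]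
    by_cases hkl : k = l
    · subst hkl; simp
    · rw [if_neg (Ne.symm hkl), if_neg hkl, smul_zero]

/-- the diagonal action -/
def ERep.add (R R' : ERep n S) (hc : ∀ p q r s, R.F p q * R'.F r s = R'.F r s * R.F p q) : ERep n S where
  F p q := R.F p q + R'.F p q
  skew p q := by rw [R.skew p q, R'.skew p q, neg_add]
  comm p q r s := by
    have e : (R.F p q + R'.F p q) * (R.F r s + R'.F r s) - (R.F r s + R'.F r s) * (R.F p q + R'.F p q) =
        (R.F p q * R.F r s - R.F r s * R.F p q) + (R'.F p q * R'.F r s - R'.F r s * R'.F p q) := by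
      rw [add_mul, add_mul, mul_add, mul_add, mul_add, mul_add, hc p q r s, hc r s p q]
      abel
    rw [e, R.comm, R'.comm]
    split_ifs <;> abel

/-- restriction to a stable subspace -/
def ERep.res (R : ERep n S) (N : Submodule ℂ S) (h : ∀ p q, ∀ x ∈ N, R.F p q x ∈ N) : ERep n N where
  F p q := (R.F p q).restrict (h p q)
  skew p q := by
    ext x
    change R.F p q x = -R.F q.swap p.swap x
    rw [R.skew p q, LinearMap.neg_apply]
  comm p q r s := by
    ext x
    have := LinearMap.congr_fun (R.comm p q r s) x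
    refine this.trans ?_
    split_ifs <;> rfl

theorem link_gen [FiniteDimensional ℂ S] (R : Fin 3 → ERep n S)
    (hc : ∀ i j, i ≠ j → ∀ p q r s, (R i).F p q * (R j).F r s = (R j).F r s * (R i).F p q) (a : Fin 3 → Wt n) (ha : ∀ i, Dom (a i)) (v : S)
    (hH : ∀ i k, (R i).F (inl k) (inl k) v = ((a i k : ℂ) / 2) • v) (hE : ∀ i, ∀ t ∈ pr n, (R i).F (inl t.1) (l2 t) v = 0)
    (φ : S →ₗ[ℂ] ℂ) (hφ : ∀ p q x, φ (∑ i, (R i).F p q x) = 0) (hφ0 : φ ≠ 0)
    (hgen : ∀ N : Submodule ℂ S, v ∈ N → (∀ i, ∀ t ∈ pr n, ∀ x ∈ N, (R i).F (l2 t) (inl t.1) x ∈ N) → N = ⊤)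
    (U : Irrep n (a 0)) (V : Irrep n (a 1)) (W : Irrep n (a 2)) : HasInvariant U V W := by
  classical
  have hv0 : v ≠ 0 := by
    rintro rfl
    have := hgen ⊥ (Submodule.zero_mem _) fun i t ht x hx => by
      rw [(Submodule.mem_bot ℂ).1 hx, map_zero]; exact Submodule.zero_mem _
    refine hφ0 (LinearMap.ext fun x => ?_)
    have hx : x ∈ (⊥ : Submodule ℂ S) := this ▸ Submodule.mem_top
    rw [(Submodule.mem_bot ℂ).1 hx, map_zero, map_zero]
  have hsp : Submodule.span ℂ {u : S | ∃ μ : Fin 3 → Wt n, ∀ i, Le (μ i) (a i) ∧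
      ∀ k, (R i).F (inl k) (inl k) u = ((μ i k : ℂ) / 2) • u} = ⊤ := by
    refine hgen _ (Submodule.subset_span ⟨a, fun i => ⟨fun _ _ => le_rfl, hH i⟩⟩) fun i t ht u hu => ?_
    induction hu using Submodule.span_induction with
    | mem u hu =>
      obtain ⟨μ, hμ⟩ := hu
      refine Submodule.subset_span ⟨Function.update μ i (μ i + 2 • (ev (l2 t) - ev (inl t.1))), fun j => ?_⟩
      by_cases hj : j = i
      · subst hj
        rw [Function.update_self]
        refine ⟨fun κ hκ => ?_, fun k => ?_⟩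
        · have e := dom_iff.1 hκ t ht
          rw [bt_eq, dotProduct_comm] at e
          rw [dotProduct_add, two_nsmul, dotProduct_add, ← neg_sub, dotProduct_neg]
          linarith [(hμ j).1 κ hκ]
        · have e := LinearMap.congr_fun ((R j).H_F k (l2 t) (inl t.1)) u
          rw [LinearMap.sub_apply, Module.End.mul_apply, Module.End.mul_apply, (hμ j).2 k, map_smul, sub_eq_iff_eq_add,
            LinearMap.smul_apply, ← add_smul] at e
          rw [e]
          congr 1
          simp only [Pi.add_apply, two_nsmul]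
          push_cast
          ring
      · rw [Function.update_of_ne hj]
        refine ⟨(hμ j).1, fun k => ?_⟩
        rw [← Module.End.mul_apply, hc j i hj, Module.End.mul_apply, (hμ j).2 k, map_smul]
    | zero => rw [map_zero]; exact Submodule.zero_mem _
    | add x y _ _ hx hy => rw [map_add]; exact Submodule.add_mem _ hx hy
    | smul c x _ hx => rw [map_smul]; exact Submodule.smul_mem _ c hx
  obtain ⟨s, hs, hspan, hli⟩ := exists_linearIndependent ℂ {u : S | ∃ μ : Fin 3 → Wt n, ∀ i, Le (μ i) (a i) ∧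
      ∀ k, (R i).F (inl k) (inl k) u = ((μ i k : ℂ) / 2) • u}
  rw [hsp] at hspan
  let b : Module.Basis s ℂ S := Module.Basis.mk hli (by rw [Subtype.range_coe, hspan])
  have : Finite s := Module.Finite.finite_basis b
  let _ : Fintype s := Fintype.ofFinite s
  have hw : ∀ x : s, ∃ μ : Fin 3 → Wt n, ∀ i, Le (μ i) (a i) ∧ ∀ k, (R i).F (inl k) (inl k) (b x) = ((μ i k : ℂ) / 2) • b x := fun x => by
    rw [show b x = (x : S) from Module.Basis.mk_apply _ _ x]
    exact hs x.2
  choose μ hμ using hw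
  let M : Fin 3 → MRep n s := fun i => (R i).toM b (fun x => μ x i) fun x k => (hμ x i).2 k
  have hM : ∀ i p q u, (M i).F p q *ᵥ b.equivFun u = b.equivFun ((R i).F p q u) := fun i p q u => by
    have := LinearMap.toMatrix_mulVec_repr b b ((R i).F p q) u
    simpa [M, ERep.toM, Module.Basis.equivFun_apply] using this
  have hMc : ∀ i j, i ≠ j → ∀ p q, (M j).Cm ((M i).F p q) := fun i j hij p q r s => by
    change LinearMap.toMatrix b b _ * LinearMap.toMatrix b b _ = LinearMap.toMatrix b b _ * LinearMap.toMatrix b b _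
    rw [← LinearMap.toMatrix_mul, ← LinearMap.toMatrix_mul, hc i j hij]
  let R' : ERep n S := (R 0).add ((R 1).add (R 2) (hc 1 2 (by decide))) fun p q r s => by
    change _ * (_ + _) = (_ + _) * _
    rw [mul_add, add_mul, hc 0 1 (by decide), hc 0 2 (by decide)]
  have hR' : ∀ p q x, R'.F p q x = ∑ i, (R i).F p q x := fun p q x => by
    rw [Fin.sum_univ_three, add_assoc]; rfl
  let M' : MRep n s := R'.toM b (fun x => μ x 0 + (μ x 1 + μ x 2)) fun x k => by
    rw [hR', Fin.sum_univ_three, (hμ x 0).2 k, (hμ x 1).2 k, (hμ x 2).2 k, ← add_smul, ← add_smul]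
    congr 1
    simp only [Pi.add_apply]
    push_cast
    ring
  refine link_mat M M' (fun k => rfl) (fun i j hij p q k l h => (hMc i j hij p q).entry h) a ha (fun i => ?_) (fun i k => (hμ k i).1)
    (w := fun k => φ (b k)) (fun h0 => hφ0 (b.ext fun k => congrFun h0 k)) (fun p q => ?_) U V W
  · have h1 : (M i).HW (a i) (b.equivFun v) := by
      refine ⟨fun h' => hv0 (b.equivFun.map_eq_zero_iff.1 h'), fun k => ?_, fun t ht => ?_⟩
      · rw [hM, hH, map_smul]
      · rw [MRep.E, hM, hE i t ht, map_zero]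
    let N : Submodule ℂ S := LinearMap.ker (((M i).Cas - cas (a i) • (1 : Matrix s s ℂ)).mulVecLin ∘ₗ b.equivFun.toLinearMap)
    have hN : ∀ u, u ∈ N ↔ (M i).Cas *ᵥ b.equivFun u = cas (a i) • b.equivFun u := fun u => by
      change ((M i).Cas - cas (a i) • (1 : Matrix s s ℂ)) *ᵥ b.equivFun u = 0 ↔ _
      rw [sub_mulVec, smul_mulVec, one_mulVec, sub_eq_zero]
    have htop : N = ⊤ := hgen N ((hN v).2 h1.Cas) fun j t ht u hu => by
      have e : (M j).F (l2 t) (inl t.1) * (M i).Cas = (M i).Cas * (M j).F (l2 t) (inl t.1) := by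
        by_cases hj : j = i
        · subst hj; exact (M j).cm_Cas _ _
        · exact (hMc j i hj _ _).comm_Cas.symm
      rw [hN, ← hM, mulVec_mulVec, ← e, ← mulVec_mulVec, (hN u).1 hu, mulVec_smul]
    have hall : ∀ w : s → ℂ, (M i).Cas *ᵥ w = cas (a i) • w := fun w => by
      obtain ⟨u', rfl⟩ := b.equivFun.surjective w
      exact (hN u').1 (htop ▸ Submodule.mem_top)
    ext k l
    have := congrFun (hall (Pi.single l 1)) k
    rw [mulVec_single_one] at this
    simp only [Matrix.col_apply, Pi.smul_apply, Pi.single_apply, smul_eq_mul] at this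
    rw [this, Matrix.smul_apply, Matrix.one_apply, smul_eq_mul]
  · funext l
    have e := hφ p q (b l)
    rw [← hR', ← b.sum_repr (R'.F p q (b l)), map_sum] at e
    change ∑ k, φ (b k) * LinearMap.toMatrix b b (R'.F p q) k l = 0
    rw [← e]
    exact Finset.sum_congr rfl fun k _ => by rw [LinearMap.toMatrix_apply, map_smul, smul_eq_mul, mul_comm]
end

theorem link {S : Type} [AddCommGroup S] [Module ℂ S] [FiniteDimensional ℂ S] (R : Fin 3 → ERep n S)
    (hc : ∀ i j, i ≠ j → ∀ p q r s, (R i).F p q * (R j).F r s = (R j).F r s * (R i).F p q) (a : Fin 3 → Wt n) (ha : ∀ i, Dom (a i)) (v : S)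
    (hH : ∀ i k, (R i).F (inl k) (inl k) v = ((a i k : ℂ) / 2) • v) (hE : ∀ i, ∀ t ∈ pr n, (R i).F (inl t.1) (l2 t) v = 0)
    (φ : S →ₗ[ℂ] ℂ) (hφ : ∀ p q x, φ (∑ i, (R i).F p q x) = 0)
    (hN : ∀ N : Submodule ℂ S, v ∈ N → (∀ i p q, ∀ x ∈ N, (R i).F p q x ∈ N) → ∃ x ∈ N, φ x ≠ 0)
    (U : Irrep n (a 0)) (V : Irrep n (a 1)) (W : Irrep n (a 2)) : HasInvariant U V W := by
  let P : Submodule ℂ S → Prop := fun W => v ∈ W ∧ ∀ i, ∀ t ∈ pr n, ∀ u ∈ W, (R i).F (l2 t) (inl t.1) u ∈ W
  let N : Submodule ℂ S := sInf {W | P W}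
  have hP : P N := ⟨Submodule.mem_sInf.2 fun W hW => hW.1,
    fun i t ht u hu => Submodule.mem_sInf.2 fun W hW => hW.2 i t ht u (Submodule.mem_sInf.1 hu W hW)⟩
  have hx : ∀ i p q, (R i).F p q v ∈ N := by
    intro i p q
    rcases pair_cases p q with rfl | rfl | ⟨t, ht, ⟨rfl, rfl⟩ | ⟨h1, h2⟩ | ⟨rfl, rfl⟩ | ⟨h1, h2⟩⟩
    · rcases p with k | k
      · rw [hH]; exact N.smul_mem _ hP.1
      · rw [(R i).skew, LinearMap.neg_apply, Sum.swap_inr, hH]; exact N.neg_mem (N.smul_mem _ hP.1)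
    · have e := (R i).skew q.swap q
      rw [Sum.swap_swap] at e
      have e2 : (2 : ℂ) • (R i).F q.swap q = 0 := by rw [two_smul]; exact eq_neg_iff_add_eq_zero.1 e
      rw [(smul_eq_zero.1 e2).resolve_left two_ne_zero, LinearMap.zero_apply]
      exact N.zero_mem
    · rw [hE i t ht]; exact N.zero_mem
    · rw [(R i).skew, h1, h2, LinearMap.neg_apply, hE i t ht, neg_zero]; exact N.zero_mem
    · exact hP.2 i t ht v hP.1
    · rw [(R i).skew, h1, h2, LinearMap.neg_apply]; exact N.neg_mem (hP.2 i t ht v hP.1)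
  let N' : Submodule ℂ S :=
    { carrier := {u | u ∈ N ∧ ∀ i p q, (R i).F p q u ∈ N}
      add_mem' := fun a b => ⟨N.add_mem a.1 b.1, fun i p q => by rw [map_add]; exact N.add_mem (a.2 i p q) (b.2 i p q)⟩
      zero_mem' := ⟨N.zero_mem, fun i p q => by rw [map_zero]; exact N.zero_mem⟩
      smul_mem' := fun c u a => ⟨N.smul_mem c a.1, fun i p q => by rw [map_smul]; exact N.smul_mem c (a.2 i p q)⟩ }
  have h1 : N ≤ N' := sInf_le ⟨⟨hP.1, hx⟩, fun j t ht u hu => ⟨hP.2 j t ht u hu.1, fun i p q => by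
    by_cases hij : i = j
    · subst hij
      have e := LinearMap.congr_fun ((R i).comm p q (l2 t) (inl t.1)) u
      rw [LinearMap.sub_apply, Module.End.mul_apply, Module.End.mul_apply, sub_eq_iff_eq_add] at e
      rw [e]
      refine N.add_mem ?_ (hP.2 i t ht _ (hu.2 i p q))
      simp only [LinearMap.sub_apply]
      refine N.sub_mem (N.sub_mem (N.sub_mem ?_ ?_) ?_) ?_ <;> split_ifs <;> first | exact hu.2 _ _ _ | exact N.zero_mem
    · rw [← Module.End.mul_apply, hc i j hij, Module.End.mul_apply]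
      exact hP.2 j t ht _ (hu.2 i p q)⟩⟩
  have h2 : ∀ i p q, ∀ x ∈ N, (R i).F p q x ∈ N := fun i p q x hx => (h1 hx).2 i p q
  obtain ⟨x, hxN, hx0⟩ := hN N hP.1 h2
  refine link_gen (S := N) (fun i => (R i).res N (h2 i)) (fun i j hij p q r s => ?_) a ha ⟨v, hP.1⟩ (fun i k => Subtype.ext (hH i k))
    (fun i t ht => Subtype.ext (hE i t ht)) (φ ∘ₗ N.subtype) (fun p q y => ?_) (fun h0 => hx0 (LinearMap.congr_fun h0 ⟨x, hxN⟩))
    (fun W' hv hW => ?_) U V W
  · ext y
    exact LinearMap.congr_fun (hc i j hij p q r s) y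
  · rw [LinearMap.comp_apply, map_sum]
    exact hφ p q y
  · have h3 : N ≤ W'.map N.subtype := sInf_le ⟨⟨_, hv, rfl⟩, by
      rintro i t ht _ ⟨u, hu, rfl⟩
      exact ⟨_, hW i t ht u hu, rfl⟩⟩
    refine top_le_iff.1 fun y _ => ?_
    obtain ⟨u, hu, e⟩ := h3 y.2
    rwa [← (Subtype.ext e : u = y)]

end Crest.Agent.R172.Pf
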