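import Crest.Agent.R172.Q.Pf.Cl

/-! R172/Q/Pf/Tr: transversality gives an invariant functional -/

set_option autoImplicit false
set_option linter.unusedVariables false
set_option linter.unusedSectionVars false
open Matrix Sum Crest.AlgebraR.SpinSaturation Crest.Agent.R172.W

noncomputable section
namespace Crest.Agent.R172.Pf

namespace CD
variable {n : ℕ} {K : Type} [Fintype K] [DecidableEq K] {S : Type} [AddCommGroup S] [Module ℂ S] (C : CD n K S)

/-- `c` as a linear map -/
def trA_cL : (L n → K → ℂ) →ₗ[ℂ] Module.End ℂ S where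
  toFun := C.c
  map_add' y z := by simp only [CD.c, Pi.add_apply, add_smul, Finset.sum_add_distrib]
  map_smul' a y := by simp only [CD.c, Pi.smul_apply, smul_eq_mul, RingHom.id_apply, Finset.smul_sum, mul_smul]

theorem trA_cL' (y : L n → K → ℂ) : C.trA_cL y = C.c y := rfl

/-- `B y` as a linear map -/
def trA_B (y : L n → K → ℂ) : (L n → K → ℂ) →ₗ[ℂ] ℂ where
  toFun := C.B y
  map_add' z z' := by simp only [CD.B, Pi.add_apply, mul_add, Finset.sum_add_distrib]
  map_smul' a z := by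
    simp only [CD.B, Pi.smul_apply, smul_eq_mul, RingHom.id_apply, Finset.mul_sum, mul_left_comm]

theorem trA_BL (y z : L n → K → ℂ) : C.trA_B y z = C.B y z := rfl

/-- `P ⊔ Λ = ⊤` (a proper subspace has a non-zero `B`-orthogonal vector; `B` is symmetric and non-degenerate); for a basis `p j` of `P` there are `l j ∈ Λ` with
`B (l j) (p j') = δ`; induction over finsets `s` of indices: `∃ Ω, Ω x = x ∧ ∀ j ∈ s, Ω * c (p j) = 0`, step `Ω * (c (l j) * c (p j))` (`c_c`). -/
theorem exists_omega (P Λ : Submodule ℂ (L n → K → ℂ)) (hP : ∀ z, z ∈ P ↔ ∀ y ∈ P, C.B y z = 0) (hΛ : ∀ z, (∀ y ∈ Λ, C.B y z = 0) → z ∈ Λ)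
    (H : ∀ y ∈ P, y ∈ Λ → y = 0) {x : S} (hx : ∀ y ∈ Λ, C.c y x = 0) :
    ∃ Ω : Module.End ℂ S, Ω x = x ∧ ∀ y ∈ P, Ω * C.c y = 0 := by
  classical
  set m := Module.finrank ℂ P with hm
  let b : Module.Basis (Fin m) ℂ P := Module.finBasis ℂ P
  let φ : Λ →ₗ[ℂ] (Fin m → ℂ) :=
    { toFun := fun l j => C.B l (b j)
      map_add' := fun l l' => by
        funext j
        simp only [CD.B, Submodule.coe_add, Pi.add_apply, add_mul, Finset.sum_add_distrib]
      map_smul' := fun a l => by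
        funext j
        simp only [CD.B, Submodule.coe_smul, Pi.smul_apply, smul_eq_mul, RingHom.id_apply, Finset.mul_sum, mul_assoc] }
  have hφ : LinearMap.range φ = ⊤ := by
    by_contra hne
    obtain ⟨f, hf0, hf⟩ := (LinearMap.range φ).exists_le_ker_of_lt_top (lt_top_iff_ne_top.2 hne)
    let a : Fin m → ℂ := fun j => f (fun i => if j = i then 1 else 0)
    let z : P := ∑ j, a j • b j
    have hz : (z : L n → K → ℂ) ∈ Λ := by
      refine hΛ _ fun y hy => ?_
      have h1 : f (φ ⟨y, hy⟩) = 0 := hf ⟨_, rfl⟩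
      rw [LinearMap.pi_apply_eq_sum_univ] at h1
      have h2 : (z : L n → K → ℂ) = ∑ j, a j • (b j : L n → K → ℂ) := by simp [z]
      rw [h2, ← C.trA_BL, map_sum]
      rw [← h1]
      refine Finset.sum_congr rfl fun j _ => ?_
      rw [map_smul, C.trA_BL, smul_eq_mul, smul_eq_mul, mul_comm]
      rfl
    have hz0 : z = 0 := Subtype.ext (H _ z.2 hz)
    have ha : ∀ j, a j = 0 := Fintype.linearIndependent_iff.1 b.linearIndependent a hz0
    apply hf0
    refine LinearMap.ext fun v => ?_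
    rw [LinearMap.pi_apply_eq_sum_univ]
    refine Finset.sum_eq_zero fun j _ => ?_
    have := ha j
    simp only [a] at this
    rw [this, smul_zero]
  have hl : ∀ j : Fin m, ∃ l ∈ Λ, ∀ j', C.B l (b j') = if j = j' then 1 else 0 := by
    intro j
    have : (fun j' => if j = j' then (1 : ℂ) else 0) ∈ LinearMap.range φ := by rw [hφ]; trivial
    obtain ⟨l, hl⟩ := this
    exact ⟨l, l.2, fun j' => congrFun hl j'⟩
  choose l hlΛ hl using hl
  have hiso : ∀ j j', C.c (b j) * C.c (b j') = -(C.c (b j') * C.c (b j)) := by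
    intro j j'
    have h1 := C.c_c (b j) (b j')
    rw [(hP _).1 (b j').2 _ (b j).2, zero_smul] at h1
    exact eq_neg_of_add_eq_zero_left h1
  have key : ∀ s : Finset (Fin m), ∃ Ω : Module.End ℂ S, Ω x = x ∧ ∀ j ∈ s, Ω * C.c (b j) = 0 := by
    intro s
    induction s using Finset.induction_on with
    | empty => exact ⟨1, rfl, by simp⟩
    | insert j s hj ih =>
      obtain ⟨Ω, h1, h2⟩ := ih
      refine ⟨Ω * (C.c (l j) * C.c (b j)), ?_, ?_⟩
      · have h3 := C.c_c (l j) (b j)
        rw [hl, if_pos rfl, one_smul] at h3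
        have h4 : C.c (l j) * C.c (b j) = 1 - C.c (b j) * C.c (l j) := eq_sub_of_add_eq h3
        rw [h4]
        simp [Module.End.mul_apply, hx _ (hlΛ j), h1]
      · intro j' hj'
        rcases Finset.mem_insert.1 hj' with rfl | hj'
        · have h3 : C.c (b j') * C.c (b j') = 0 := by
            have h4 := hiso j' j'
            have h5 : (2 : ℂ) • (C.c (b j') * C.c (b j')) = 0 := by
              rw [two_smul]; exact add_eq_zero_iff_eq_neg.2 h4
            exact (smul_eq_zero.1 h5).resolve_left two_ne_zero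
          rw [mul_assoc, mul_assoc, h3, mul_zero, mul_zero]
        · have hne : j ≠ j' := fun h => hj (h ▸ hj')
          have h3 := C.c_c (l j) (b j')
          rw [hl, if_neg hne, zero_smul] at h3
          have h4 : C.c (l j) * C.c (b j') = -(C.c (b j') * C.c (l j)) := eq_neg_of_add_eq_zero_left h3
          rw [mul_assoc, mul_assoc, hiso j j', mul_neg, ← mul_assoc (C.c (l j)), h4, neg_mul, neg_neg,
            mul_assoc, ← mul_assoc Ω, h2 j' hj', zero_mul]
  obtain ⟨Ω, h1, h2⟩ := key Finset.univ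
  refine ⟨Ω, h1, fun y hy => ?_⟩
  have h3 : y = ∑ j, b.repr ⟨y, hy⟩ j • (b j : L n → K → ℂ) := by
    have := congrArg Subtype.val (b.sum_repr ⟨y, hy⟩)
    rw [Submodule.coe_sum] at this
    simp only [Submodule.coe_smul] at this
    exact this.symm
  rw [h3, ← C.trA_cL', map_sum, Finset.mul_sum]
  refine Finset.sum_eq_zero fun j _ => ?_
  rw [map_smul, C.trA_cL', mul_smul_comm, h2 j (Finset.mem_univ _), smul_zero]

theorem trb_row (T : Submodule ℂ (K → ℂ)) {Ω : Module.End ℂ S}
    (hΩ : ∀ y : L n → K → ℂ, (∀ p, y p ∈ T) → Ω * C.c y = 0) (p : L n) {u : K → ℂ} (hu : u ∈ T) :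
    Ω * ∑ l, u l • C.γ p l = 0 := by
  have h := hΩ (fun r => if r = p then u else 0) fun r => by
    split_ifs
    · exact hu
    · exact T.zero_mem
  rw [← h, c, Finset.sum_eq_single p]
  · simp
  · intro r _ hr; simp [hr]
  · simp

theorem trb_main (T : Submodule ℂ (K → ℂ)) (hT : ∀ u, u ∈ T ↔ ∀ t ∈ T, ∑ k, t k * u (C.τ k) = 0) {Ω : Module.End ℂ S}
    (hΩ : ∀ y : L n → K → ℂ, (∀ p, y p ∈ T) → Ω * C.c y = 0) :
    ∃ d : ℂ, ∀ p q : L n, Ω * ∑ k, C.γ p k * C.γ q.swap (C.τ k) = if p = q then d • Ω else 0 := by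
  obtain ⟨T', hc⟩ := T.exists_isCompl
  set π : (K → ℂ) →ₗ[ℂ] (K → ℂ) := T.subtype ∘ₗ T.projectionOnto T' hc with hπ
  have h1 : ∀ u, π u ∈ T := fun u => (T.projectionOnto T' hc u).2
  have h2 : ∀ t ∈ T, π t = t := fun t ht =>
    congrArg Subtype.val (Submodule.projectionOnto_apply_left hc ⟨t, ht⟩)
  set Q : K → K → ℂ := fun k => Pi.single k 1 - π (Pi.single k 1) with hQ
  have hz : ∀ l, (fun m => Q (C.τ m) l) ∈ T := fun l => (hT _).2 fun t ht => by
    simp only [C.hτ]
    have e : ∑ k, t k • Q k = t - π t := by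
      simp only [hQ, smul_sub, Finset.sum_sub_distrib, ← map_smul, ← map_sum]
      have : ∑ k, t k • (Pi.single k 1 : K → ℂ) = t := by
        ext m; simp [Finset.sum_apply, Pi.single_apply]
      rw [this]
    have := congrFun e l
    rw [h2 t ht, sub_self] at this
    simpa [Finset.sum_apply] using this
  have h3 : ∀ p k, Ω * C.γ p k = ∑ l, Q k l • (Ω * C.γ p l) := fun p k => by
    have a := C.trb_row T hΩ p (h1 (Pi.single k 1))
    simp only [hQ, Pi.sub_apply, sub_smul, Finset.sum_sub_distrib]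
    rw [Finset.mul_sum] at a
    simp only [mul_smul_comm] at a
    rw [a, sub_zero, Finset.sum_eq_single k] <;> simp +contextual
  refine ⟨∑ l, Q l l, fun p q => ?_⟩
  have h4 : ∀ l, ∑ k, Q k l • (Ω * C.γ p l * C.γ q.swap (C.τ k)) = if p = q then Q l l • Ω else 0 := fun l => by
    have a := C.trb_row T hΩ q.swap (hz l)
    have b : ∑ k, Q k l • C.γ q.swap (C.τ k) = ∑ m, Q (C.τ m) l • C.γ q.swap m :=
      Fintype.sum_equiv (Function.Involutive.toPerm C.τ C.hτ) _ _ fun k => by simp [C.hτ]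
    rw [← b] at a
    have e : ∀ k, Ω * C.γ p l * C.γ q.swap (C.τ k) =
        (if p = q ∧ k = l then Ω else 0) - Ω * C.γ q.swap (C.τ k) * C.γ p l := fun k => by
      have h := congrArg (Ω * ·) (C.car p l q.swap (C.τ k))
      have i : (q.swap = p.swap ∧ C.τ k = C.τ l) ↔ (p = q ∧ k = l) :=
        and_congr ⟨fun h => (Sum.swap_leftInverse.injective h).symm, fun h => h ▸ rfl⟩
          (Function.Involutive.injective C.hτ).eq_iff
      simp only [i, mul_add, mul_ite, mul_one, mul_zero, ← mul_assoc] at h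
      exact eq_sub_of_add_eq h
    have f : ∑ k, Q k l • (Ω * C.γ q.swap (C.τ k) * C.γ p l) = 0 := by
      have := congrArg (· * C.γ p l) a
      simpa only [Finset.mul_sum, Finset.sum_mul, mul_smul_comm, smul_mul_assoc, zero_mul] using this
    simp only [e, smul_sub, Finset.sum_sub_distrib, f, sub_zero]
    by_cases hpq : p = q <;> simp [hpq]
  calc Ω * ∑ k, C.γ p k * C.γ q.swap (C.τ k) = ∑ k, ∑ l, Q k l • (Ω * C.γ p l * C.γ q.swap (C.τ k)) := by
        rw [Finset.mul_sum]
        refine Finset.sum_congr rfl fun k _ => ?_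
        rw [← mul_assoc, h3, Finset.sum_mul]
        simp only [smul_mul_assoc]
    _ = _ := by
        rw [Finset.sum_comm]
        simp only [h4]
        split_ifs <;> simp [Finset.sum_smul]

/-- Let `Q = 1 - π`, `π` a projection of `K → ℂ` onto `T`.  `Ω * ∑ k, γ p k * γ q' (τ k) = ∑ l, Ω * γ p l * c (w q' ⊗ z l)`, `z l = ∑ k, Q l k • e (τ k) ∈ T`,
so it is `(if p = q then trace Q else 0) • Ω` (`c_c`).  Hence `Ω * ∑ i, F i p q = (if p = q then δ else 0) • Ω`, and `δ • Ω = 0` by `F_skew` at `(p, p)`. -/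
theorem omega_inv (T : Submodule ℂ (K → ℂ)) (hT : ∀ u, u ∈ T ↔ ∀ t ∈ T, ∑ k, t k * u (C.τ k) = 0) {Ω : Module.End ℂ S}
    (hΩ : ∀ y : L n → K → ℂ, (∀ p, y p ∈ T) → Ω * C.c y = 0) (p q : L n) : Ω * ∑ i, C.F i p q = 0 := by
  obtain ⟨d, hd⟩ := C.trb_main T hT hΩ
  have h1 : ∀ p q : L n, Ω * ∑ i, C.F i p q = if p = q then (d - Fintype.card K * 2⁻¹) • Ω else 0 := fun p q => by
    simp only [F]
    rw [Finset.sum_fiberwise Finset.univ C.col, Finset.sum_sub_distrib, mul_sub, hd]
    split_ifs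
    · simp [sub_smul, mul_smul, Nat.cast_smul_eq_nsmul, (Nat.cast_commute _ Ω).eq]
    · simp
  rw [h1]
  split_ifs with h
  · have a := h1 p p
    have b := h1 p.swap p.swap
    rw [if_pos rfl] at a b
    have e : ∑ i, C.F i p p = -∑ i, C.F i p.swap p.swap := by
      rw [← Finset.sum_neg_distrib]; exact Finset.sum_congr rfl fun i _ => C.F_skew i p p
    rw [e, mul_neg, b] at a
    have : (2 : ℂ) • ((d - Fintype.card K * 2⁻¹) • Ω) = 0 := by rw [two_smul]; exact add_eq_zero_iff_neg_eq.2 a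
    exact (smul_eq_zero.1 this).resolve_left two_ne_zero
  · rfl

end CD
end Crest.Agent.R172.Pf
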