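import Crest.Agent.R172.Q.Pf.Car
import Crest.Agent.R172.Q.Pf.Exp
import Crest.Agent.R172.Q.Pf.Tr
import Crest.Agent.R172.Q.Pf.Link

/-! R172/Q/Pf/Main: S_PF -/

set_option autoImplicit false
set_option linter.unusedVariables false
set_option linter.unusedSectionVars false
open Matrix Sum Crest.AlgebraR.SpinSaturation Crest.Agent.R172.W

noncomputable section
namespace Crest.Agent.R172.Pf

/-- S_PF.  `car_exists` on `I = L n × K`; `x = G₀ (G₁ (G₂ v))` (`lift_closure`), `Λ = {y | ∀ k, ∃ w, …}`, `P = {y | ∀ p, y p ∈ T}`, `exists_omega`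
(`orth_closure` for `hΛ`), `φ = ψ ∘ Ω` with `ψ x ≠ 0`, `omega_inv`, `link`. -/
theorem S_PF_gen {n : ℕ} {K : Type} [Fintype K] [DecidableEq K] (τ : K → K) (hτ : ∀ k, τ (τ k) = k) (col : K → Fin 3) (hcol : ∀ k, col (τ k) = col k)
    (J : L n → K → Prop) [∀ p k, Decidable (J p k)] (hJ : ∀ p k, J p.swap (τ k) ↔ ¬J p k)
    (hB : ∀ t ∈ pr n, ∀ k, J (l2 t) k → J (inl t.1) k) (a : Fin 3 → Wt n) (ha : ∀ i, Dom (a i))
    (hw : ∀ i j, a i j = ∑ k ∈ Finset.univ.filter (fun k => col k = i), if J (inl j) k then 1 else -1)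
    (g : Fin 3 → Matrix (L n) (L n) ℂ) (hg : ∀ (S : Type) [AddCommGroup S] [Module ℂ S] (C : CD n K S) i, C.Lift i (g i))
    (hg' : ∀ i, (∀ u w : L n → ℂ, ∑ p, (g i *ᵥ u) p * (g i *ᵥ w) p.swap = ∑ p, u p * w p.swap) ∧ Function.Surjective (g i).mulVec)
    (T : Submodule ℂ (K → ℂ)) (hT : ∀ u, u ∈ T ↔ ∀ t ∈ T, ∑ k, t k * u (τ k) = 0)
    (H : ∀ y : L n → K → ℂ, (∀ p, y p ∈ T) → (∀ k, ∃ w : L n → ℂ, (∀ p, ¬J p k → w p = 0) ∧ (fun p => y p k) = g (col k) *ᵥ w) → y = 0)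
    (U : Irrep n (a 0)) (V : Irrep n (a 1)) (W : Irrep n (a 2)) : HasInvariant U V W := by
  classical
  obtain ⟨S, i1, i2, i3, γ, v, hv0, hv, hcar⟩ := car_exists (I := L n × K) (fun x => (x.1.swap, τ x.2))
    (fun x => by simp [hτ]) (fun x => J x.1 x.2) (fun x => hJ x.1 x.2)
  let C : CD n K S := ⟨τ, hτ, col, hcol, fun p k => γ (p, k), fun p k q l => by
    rw [hcar]; simp only [Prod.mk.injEq]⟩
  have hv' : ∀ p k, J p k → C.γ p k v = 0 := fun p k h => hv (p, k) h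
  choose G hG1 hG2 hG3 using fun i => hg S C i
  obtain ⟨x, hx⟩ : ∃ x, x = G 0 (G 1 (G 2 v)) := ⟨_, rfl⟩
  have hx0 : x ≠ 0 := fun h => hv0 (hG1 2 (hG1 1 (hG1 0 (by rw [← hx, h]; simp))))
  let Λ : Submodule ℂ (L n → K → ℂ) :=
    { carrier := {y | ∀ k, ∃ w : L n → ℂ, (∀ p, ¬J p k → w p = 0) ∧ (fun p => y p k) = g (col k) *ᵥ w}
      add_mem' := fun {y y'} hy hy' k => by
        obtain ⟨w, h1, h2⟩ := hy k
        obtain ⟨w', h1', h2'⟩ := hy' k
        refine ⟨w + w', fun p hp => by simp [h1 p hp, h1' p hp], ?_⟩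
        rw [mulVec_add, ← h2, ← h2']; rfl
      zero_mem' := fun k => ⟨0, fun p _ => rfl, by rw [mulVec_zero]; rfl⟩
      smul_mem' := fun r y hy k => by
        obtain ⟨w, h1, h2⟩ := hy k
        refine ⟨r • w, fun p hp => by simp [h1 p hp], ?_⟩
        rw [mulVec_smul, ← h2]; rfl }
  have mΛ : ∀ y, y ∈ Λ ↔ ∀ k, ∃ w : L n → ℂ, (∀ p, ¬J p k → w p = 0) ∧ (fun p => y p k) = g (col k) *ᵥ w := fun y => Iff.rfl
  let P : Submodule ℂ (L n → K → ℂ) := Submodule.pi Set.univ fun _ => T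
  have mP : ∀ y, y ∈ P ↔ ∀ p, y p ∈ T := fun y => by simp [P, Submodule.mem_pi]
  have hP : ∀ z, z ∈ P ↔ ∀ y ∈ P, C.B y z = 0 := by
    intro z
    constructor
    · intro hz y hy
      exact Finset.sum_eq_zero fun p _ => (hT _).1 ((mP z).1 hz p.swap) _ ((mP y).1 hy p)
    · intro h
      refine (mP z).2 fun p => (hT _).2 fun t ht => ?_
      have h1 := h (Pi.single p.swap t) ((mP _).2 fun q => by
        by_cases hq : q = p.swap
        · subst hq; simpa using ht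
        · rw [Pi.single_eq_of_ne hq]; exact T.zero_mem)
      rw [CD.B, Finset.sum_eq_single p.swap] at h1
      · simpa using h1
      · intro q _ hq
        simp [Pi.single_eq_of_ne hq]
      · simp
  have hΛ : ∀ z, (∀ y ∈ Λ, C.B y z = 0) → z ∈ Λ := by
    intro z h
    refine (mΛ z).2 fun k => ?_
    obtain ⟨ho, hs⟩ := hg' (col k)
    obtain ⟨w, hw'⟩ := hs fun p => z p k
    refine ⟨w, fun p hp => ?_, hw'.symm⟩
    have hy : (fun r l => if l = τ k then (g (col k) *ᵥ Pi.single p.swap 1) r else 0 : L n → K → ℂ) ∈ Λ := by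
      refine (mΛ _).2 fun l => ?_
      by_cases hl : l = τ k
      · subst hl
        refine ⟨Pi.single p.swap 1, fun r hr => ?_, by simp only [if_true, hcol]⟩
        by_cases hrp : r = p.swap
        · subst hrp; exact absurd ((hJ p k).2 hp) hr
        · exact Pi.single_eq_of_ne hrp _
      · exact ⟨0, fun r _ => rfl, by simp [hl]; rfl⟩
    have h1 := h _ hy
    have h2 : C.B (fun r l => if l = τ k then (g (col k) *ᵥ Pi.single p.swap 1) r else 0) z =
        ∑ r, (g (col k) *ᵥ Pi.single p.swap 1) r * (g (col k) *ᵥ w) r.swap := by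
      refine Finset.sum_congr rfl fun r _ => ?_
      rw [Finset.sum_eq_single (τ k)]
      · beta_reduce
        rw [if_pos rfl, hw']
        show _ * z r.swap (τ (τ k)) = _
        rw [hτ]
      · intro l _ hl
        beta_reduce
        rw [if_neg hl, zero_mul]
      · simp
    rw [h2, ho, Finset.sum_eq_single p.swap] at h1
    · simpa using h1
    · intro r _ hr
      rw [Pi.single_eq_of_ne hr, zero_mul]
    · simp
  have hcx : ∀ y ∈ Λ, C.c y x = 0 := by
    intro y hy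
    choose w hw1 hw2 using (mΛ y).1 hy
    have hy0 : y = actc col 0 (g 0) (actc col 1 (g 1) (actc col 2 (g 2) fun p k => w k p)) := by
      funext p k
      have h1 : y p k = (g (col k) *ᵥ w k) p := congrFun (hw2 k) p
      rw [h1]
      obtain ⟨i, hi⟩ : ∃ i, col k = i := ⟨_, rfl⟩
      fin_cases i <;> simp [actc, hi]
    have h0 : C.c (fun p k => w k p) v = 0 := by
      rw [CD.c, LinearMap.sum_apply]
      refine Finset.sum_eq_zero fun p _ => ?_
      rw [LinearMap.sum_apply]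
      refine Finset.sum_eq_zero fun k _ => ?_
      rw [LinearMap.smul_apply]
      by_cases hj : J p k
      · rw [hv' p k hj, smul_zero]
      · rw [hw1 k p hj, zero_smul]
    have hs : ∀ i (y : L n → K → ℂ) (u : S), C.c (actc col i (g i) y) (G i u) = G i (C.c y u) := fun i y u =>
      (LinearMap.congr_fun (hG3 i y) u).symm
    rw [hy0, hx, hs, hs, hs, h0, map_zero, map_zero, map_zero]
  obtain ⟨Ω, hΩ1, hΩ2⟩ := C.exists_omega P Λ hP hΛ (fun y h1 h2 => H y ((mP y).1 h1) ((mΛ y).1 h2)) hcx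
  obtain ⟨ψ, hψ⟩ := Module.Projective.exists_dual_ne_zero ℂ hx0
  refine link (fun i => ⟨C.F i, C.F_skew i, C.F_comm i⟩) (fun i j h p q r s => C.F_commute h p q r s) a ha v
    (fun i k => ?_) (fun i t ht => ?_) (ψ ∘ₗ Ω) (fun p q u => ?_) (fun N hvN hN => ?_) U V W
  · rw [hw i k]
    exact C.F_vac_H hJ hv' i (inl k)
  · refine C.F_vac_E hJ hv' i ?_ (hB t ht)
    have hlt : t.1 < t.2.1 := (Finset.mem_filter.1 ht).2
    unfold l2
    split_ifs
    · exact fun h => hlt.ne (inl.inj h)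
    · exact inl_ne_inr
  · have h1 := LinearMap.congr_fun (C.omega_inv T hT (fun y hy => hΩ2 y ((mP y).2 hy)) p q) u
    rw [Module.End.mul_apply, LinearMap.sum_apply] at h1
    show ψ (Ω (∑ i, C.F i p q u)) = 0
    rw [h1, LinearMap.zero_apply, map_zero]
  · refine ⟨x, hx ▸ hG2 0 N hN _ (hG2 1 N hN _ (hG2 2 N hN _ hvN)), ?_⟩
    show ψ (Ω x) ≠ 0
    rw [hΩ1]; exact hψ

/-- S_PF for words in the root subgroups -/
theorem S_PF {n : ℕ} {K : Type} [Fintype K] [DecidableEq K] (τ : K → K) (hτ : ∀ k, τ (τ k) = k) (col : K → Fin 3) (hcol : ∀ k, col (τ k) = col k)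
    (J : L n → K → Prop) [∀ p k, Decidable (J p k)] (hJ : ∀ p k, J p.swap (τ k) ↔ ¬J p k)
    (hB : ∀ t ∈ pr n, ∀ k, J (l2 t) k → J (inl t.1) k) (a : Fin 3 → Wt n) (ha : ∀ i, Dom (a i))
    (hw : ∀ i j, a i j = ∑ k ∈ Finset.univ.filter (fun k => col k = i), if J (inl j) k then 1 else -1)
    (g : Fin 3 → Matrix (L n) (L n) ℂ) (hg : ∀ i, g i ∈ Submonoid.closure (gens n))
    (T : Submodule ℂ (K → ℂ)) (hT : ∀ u, u ∈ T ↔ ∀ t ∈ T, ∑ k, t k * u (τ k) = 0)
    (H : ∀ y : L n → K → ℂ, (∀ p, y p ∈ T) → (∀ k, ∃ w : L n → ℂ, (∀ p, ¬J p k → w p = 0) ∧ (fun p => y p k) = g (col k) *ᵥ w) → y = 0)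
    (U : Irrep n (a 0)) (V : Irrep n (a 1)) (W : Irrep n (a 2)) : HasInvariant U V W :=
  S_PF_gen τ hτ col hcol J hJ hB a ha hw g (fun S _ _ C i => C.lift_closure i (hg i)) (fun i => orth_closure (hg i)) T hT H U V W

end Crest.Agent.R172.Pf
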